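import Vale.Agent.P032.H538.State1
import Vale.Agent.P032.H695.TwoSq3
import Vale.Agent.P032.H987.Inst

/-!
# P032: no apex of order three inside a point of order four, zones at any two-pair point (helper815)

`no_sub815` : `X, y, V` a unit triangle, `y` of order at least four, `T X = {a, b, e}` with
`a, b ∈ T V`: then `T X` is not inside `T y`.
`exists_zn815` : the zones of the pairs of a two-pair point.
-/

open Set Filter Topology Metric

noncomputable section

namespace Vale.Agent.P032.H815

open Vale.Agent.P032.Six Vale.Agent.P032.S5.H767 Vale.Agent.P032.S5.H349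
open Vale.Agent.P032.H987 (Zn zn_of)

variable {U : Fin 6 → Set ℂ} {T : ℂ → Set (Fin 6)} {V y X : ℂ} {a b c d e : Fin 6}

theorem pair_le815 (r s : Fin 6) : ({r, s} : Set (Fin 6)).ncard ≤ 2 := by
  have := Set.ncard_insert_le r ({s} : Set (Fin 6))
  rw [Set.ncard_singleton] at this
  exact this

/-- **no apex of order three with two colours of the centre inside a point of order four** -/
theorem no_sub815 (hd : DF U T) (h4 : 4 ≤ (T y).ncard) (hy : dist y V = 1) (hX : dist X V = 1)
    (hXy : dist X y = 1) (haV : a ∈ T V) (hbV : b ∈ T V) (h3 : (T X).ncard = 3)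
    (hT : T X = {a, b, e}) : ¬ ({a, b, e} : Set (Fin 6)) ⊆ T y := by
  intro hsub
  have h := hd.irr
  have hXs : T X ⊆ T y := by rw [hT]; exact hsub
  rcases hd.harm_or h4 with ⟨A, hA⟩ | ⟨r, s, t, u, hD⟩
  · have hev : ∀ᶠ w in 𝓝[sphere y 1] X, A ⊆ Pal U w := by
      filter_upwards [mem_nhdsWithin_of_mem_nhds (h.nhd X), self_mem_nhdsWithin] with w hw hwy
      exact fun i hi => h.sub w (hA.h1 w hwy (hw.trans hXs) hi)
    have hAX : A ⊆ T X := hA.h1 X hXy hXs
    have hVX : dist V X = 1 := by rw [dist_comm]; exact hX
    have hne : y ≠ V := by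
      rintro rfl
      rw [dist_self] at hy
      exact zero_ne_one hy
    have h2 : y + V ≠ 2 * X := by
      intro h5
      have h6 : V - y = 2 * (X - y) := by linear_combination h5
      have h7 : dist V y = 2 := by
        rw [dist_eq_norm, h6, norm_mul, ← dist_eq_norm, hXy]; simp
      rw [dist_comm, hy] at h7
      norm_num at h7
    have key : ∀ i ∈ A, i ∉ T V := fun i hi hV =>
      h.mx.sweep_notMem hXy hev hVX hne h2 hi (h.sub V hV)
    have hAe : A ⊆ {e} := by
      intro i hi
      have h5 := hAX hi
      rw [hT] at h5
      rcases h5 with rfl | rfl | h5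
      · exact absurd haV (key _ hi)
      · exact absurd hbV (key _ hi)
      · exact h5
    have := Set.ncard_le_ncard hAe (Set.toFinite _)
    rw [hA.cardA, Set.ncard_singleton] at this
    omega
  · -- a full pair is in `T X`
    have k1 : ¬ ({r, s} : Set (Fin 6)) ⊆ T X := by
      intro k
      have : T X ⊆ {r, s} := fun g hg => H695.third695 h hD hXy h3.le k hg (hXs hg)
      have := Set.ncard_le_ncard this (Set.toFinite _)
      have := pair_le815 r s
      omega
    have k2 : ¬ ({t, u} : Set (Fin 6)) ⊆ T X := by
      intro k
      have : T X ⊆ {t, u} := fun g hg => by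
        have := H695.third695 h hD.swap hXy h3.le k hg (hXs hg)
        exact this
      have := Set.ncard_le_ncard this (Set.toFinite _)
      have := pair_le815 t u
      omega
    obtain ⟨m, hm, hm'⟩ := Set.not_subset.1 k1
    obtain ⟨n, hn, hn'⟩ := Set.not_subset.1 k2
    have hle : ∀ m' n' : Fin 6, (∀ g ∈ T X, g = m' ∨ g = n') → False := by
      intro m' n' hh
      have h5 : T X ⊆ {m', n'} := fun g hg => hh g hg
      have := Set.ncard_le_ncard h5 (Set.toFinite _)
      have := pair_le815 m' n'
      omega
    have hpal : ∀ g ∈ T X, g = r ∨ g = s ∨ g = t ∨ g = u := by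
      intro g hg
      have := hXs hg
      rw [hD.pal] at this
      simpa using this
    rcases hm with rfl | hm <;> rcases hn with rfl | hn
    · exact hle s u fun g hg => by
        rcases hpal g hg with rfl | k | rfl | k
        · exact absurd hg hm'
        · exact Or.inl k
        · exact absurd hg hn'
        · exact Or.inr k
    · have hn : n = u := hn
      subst hn
      exact hle s t fun g hg => by
        rcases hpal g hg with rfl | k | k | rfl
        · exact absurd hg hm'
        · exact Or.inl k
        · exact Or.inr k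
        · exact absurd hg hn'
    · have hm : m = s := hm
      subst hm
      exact hle r u fun g hg => by
        rcases hpal g hg with k | rfl | rfl | k
        · exact Or.inl k
        · exact absurd hg hm'
        · exact absurd hg hn'
        · exact Or.inr k
    · have hm : m = s := hm
      have hn : n = u := hn
      subst hm hn
      exact hle r t fun g hg => by
        rcases hpal g hg with k | rfl | k | rfl
        · exact Or.inl k
        · exact absurd hg hm'
        · exact Or.inr k
        · exact absurd hg hn'

/-- **the zones of a two-pair point** -/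
theorem exists_zn815 (h : Irr U T) (hz : DPt T V a b c d) : ∃ p q, Zn T V a b c d p q := by
  have sw : ∀ {a b c d : Fin 6} {p q : ℝ}, Zn T V a b c d p q → Zn T V b a c d p q := by
    intro a b c d p q Z
    refine ⟨Z.lt, Z.lt', fun u hu => Z.zA u ?_, Z.zC⟩
    rw [Set.pair_comm]
    exact hu
  have sw' : ∀ {a b c d : Fin 6} {p q : ℝ}, Zn T V a b c d p q → Zn T V a b d c p q := by
    intro a b c d p q Z
    refine ⟨Z.lt, Z.lt', Z.zA, fun u hu => Z.zC u ?_⟩
    rw [Set.pair_comm]
    exact hu
  obtain ⟨p, p', q, q', Z | Z | Z | Z⟩ := h.exists_zonesP824 hz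
  · exact ⟨p, q, zn_of Z⟩
  · exact ⟨p, q, sw' (zn_of Z)⟩
  · exact ⟨p, q, sw (zn_of Z)⟩
  · exact ⟨p, q, sw (sw' (zn_of Z))⟩

end Vale.Agent.P032.H815
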