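import Vale.Agent.P032.H987.Exc
import Vale.Agent.P032.H815.SubX

/-!
# P032: the input structure of the one-circle list, from the frame `DF` (helper815)

`czM_of815` : a two-pair point of a frame `DF` in the mode `e` (no point `{a, b, f}` in the closure of
the arcs of `ab`, no point `{c, d, f}` in the closure of the arcs of `cd`) is a `CzM`.
`czM_of_mode815` : the mode in the form `T p = {a, b}` or `T p = {a, b, e}`.
`exists_zn815` (`H815/SubX`): its zones.
-/

open Set Filter Topology Metric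

noncomputable section

namespace Vale.Agent.P032.H815

open Vale.Agent.P032.Six Vale.Agent.P032.S5.H767 Vale.Agent.P032.S5.H349
open Vale.Agent.P032.H987 (CzM)

variable {U : Fin 6 → Set ℂ} {T : ℂ → Set (Fin 6)} {V : ℂ} {a b c d e f : Fin 6}

theorem ncard3_815 {a b e : Fin 6} (ab : a ≠ b) (ae : a ≠ e) (be : b ≠ e) :
    ({a, b, e} : Set (Fin 6)).ncard = 3 := by
  rw [Set.ncard_insert_of_notMem, Set.ncard_pair be]
  simp only [mem_insert_iff, mem_singleton_iff, not_or]
  exact ⟨ab, ae⟩

/-- **`CzM` from the frame and the mode** -/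
theorem czM_of815 (hd : DF U T) (hz : DPt T V a b c d) (nd : [a, b, c, d, e, f].Nodup)
    (mA : ∀ y ∈ closure (Ex T V {a, b}), T y ≠ {a, b, f})
    (mC : ∀ y ∈ closure (Ex T V {c, d}), T y ≠ {c, d, f}) : CzM U T V a b c d e f := by
  obtain ⟨⟨ab, ac, ad, ae, af⟩, ⟨bc, bd, be, bf⟩, ⟨cd, ce, cf⟩, ⟨de, df⟩, ef⟩ := nd_ne nd
  have pa : a ∈ T V := by rw [hz.pal]; simp
  have pb : b ∈ T V := by rw [hz.pal]; simp
  have pc : c ∈ T V := by rw [hz.pal]; simp
  have pd : d ∈ T V := by rw [hz.pal]; simp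
  exact
    { irr := hd.irr
      dpt := hz
      nd := nd
      nA := fun y _ hT hy => mA y hy hT
      nC := fun y _ hT hy => mC y hy hT
      sA := fun y X hy h4 hX hXy hT => no_sub815 hd h4 hy hX hXy pa pb
        (by rw [hT]; exact ncard3_815 ab ae be) hT
      sC := fun y X hy h4 hX hXy hT => no_sub815 hd h4 hy hX hXy pc pd
        (by rw [hT]; exact ncard3_815 cd ce de) hT }

/-- the mode in the form of the end palettes -/
theorem czM_of_mode815 (hd : DF U T) (hz : DPt T V a b c d) (nd : [a, b, c, d, e, f].Nodup)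
    (mA : ∀ y ∈ closure (Ex T V {a, b}), (T y).ncard ≤ 3 → T y = {a, b} ∨ T y = {a, b, e})
    (mC : ∀ y ∈ closure (Ex T V {c, d}), (T y).ncard ≤ 3 → T y = {c, d} ∨ T y = {c, d, e}) :
    CzM U T V a b c d e f := by
  obtain ⟨⟨ab, ac, ad, ae, af⟩, ⟨bc, bd, be, bf⟩, ⟨cd, ce, cf⟩, ⟨de, df⟩, ef⟩ := nd_ne nd
  refine czM_of815 hd hz nd (fun y hy hT => ?_) fun y hy hT => ?_
  · have hf : f ∈ T y := by rw [hT]; simp
    rcases mA y hy (by rw [hT]; exact (ncard3_815 ab af bf).le) with k | k
    · rw [k] at hf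
      rcases hf with hf | hf
      exacts [af hf.symm, bf hf.symm]
    · rw [k] at hf
      rcases hf with hf | hf | hf
      exacts [af hf.symm, bf hf.symm, ef hf.symm]
  · have hf : f ∈ T y := by rw [hT]; simp
    rcases mC y hy (by rw [hT]; exact (ncard3_815 cd cf df).le) with k | k
    · rw [k] at hf
      rcases hf with hf | hf
      exacts [cf hf.symm, df hf.symm]
    · rw [k] at hf
      rcases hf with hf | hf | hf
      exacts [cf hf.symm, df hf.symm, ef hf.symm]

end Vale.Agent.P032.H815
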