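import Vale.Agent.P032.H987.Arcs

/-!
# P032: a `J` of a centre is on a zone line (helper815)

* `base815` : zones with the `J` as the base, the names such that the label of the `J` is `6`;
* `czf_swg815`, `czf_ef815` : renaming lemmas of `CzF`.
-/

open Set Filter Topology Metric

noncomputable section

namespace Vale.Agent.P032.H815

open Vale.Agent.P032.Six Vale.Agent.P032.S5.H767 Vale.Agent.P032.S5.H349
  Vale.Agent.P032.S5.H450 Vale.Agent.P032.S5.H122 Vale.Agent.P032.Sweep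
open Vale.Agent.P032.H987 hiding lb

variable {U : Fin 6 → Set ℂ} {T : ℂ → Set (Fin 6)} {z y : ℂ} {a b c d e f : Fin 6} {p q φ : ℝ}
  {g1 g2 : Bool}

/-- exchange of the pairs and of the free colours -/
theorem czf_swg815 (S : CzF g1 g2 U T z a b c d e f) : CzF g2 g1 U T z c d a b f e where
  irr := S.irr
  dpt := S.dpt.swap
  nd := by
    have h := S.nd
    simp only [List.nodup_cons, List.mem_cons, List.not_mem_nil, or_false, not_or, List.nodup_nil,
      and_true, not_false_eq_true] at h ⊢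
    obtain ⟨⟨ab, ac, ad, ae, af⟩, ⟨bc, bd, be, bf⟩, ⟨cd, ce, cf⟩, ⟨de, df⟩, ef⟩ := h
    exact ⟨⟨cd, Ne.symm ac, Ne.symm bc, cf, ce⟩, ⟨Ne.symm ad, Ne.symm bd, df, de⟩, ⟨ab, af, ae⟩,
      ⟨bf, be⟩, Ne.symm ef⟩
  hJ := S.hJ
  cln := fun y hy h => S.cln y hy h.symm
  nj := S.nj
  cln1 := fun h y hy h1 h2 => S.cln2 h y hy h1 h2
  cln2 := fun h y hy h1 h2 => S.cln1 h y hy h1 h2

theorem znsw815 (Z : Zn T z a b c d p q) : Zn T z c d a b q (p + 3) where
  lt := Z.lt'
  lt' := by have := Z.lt; linarith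
  zA := fun u hu => Z.zC u hu
  zC := fun u hu => by
    obtain ⟨n, h1, h2⟩ := Z.zA u hu
    exact ⟨n + 1, by push_cast; linarith, by push_cast; linarith⟩

theorem znsh815 (Z : Zn T z a b c d p q) (k : ℤ) :
    Zn T z a b c d (p + 3 * (k : ℝ)) (q + 3 * (k : ℝ)) where
  lt := by have := Z.lt; linarith
  lt' := by have := Z.lt'; linarith
  zA := fun u hu => by
    obtain ⟨n, h1, h2⟩ := Z.zA u hu
    exact ⟨n + k, by push_cast; linarith, by push_cast; linarith⟩
  zC := fun u hu => by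
    obtain ⟨n, h1, h2⟩ := Z.zC u hu
    exact ⟨n + k, by push_cast; linarith, by push_cast; linarith⟩

/-- exact points near one side are in the closure -/
theorem cl_side815 {P : Set (Fin 6)} {u β : ℝ} (hβ : u < β)
    (h : ∀ v ∈ Ioo u β, pt z v ∈ Ex T z P) : pt z u ∈ closure (Ex T z P) := by
  have h1 : u ∈ closure (Ioo u β) := by rw [closure_Ioo hβ.ne]; exact ⟨le_rfl, hβ.le⟩
  exact map_mem_closure (f := fun t => pt z t) (continuous_pt z) h1 (fun t ht => h t ht)

theorem cl_side815' {P : Set (Fin 6)} {u α : ℝ} (hα : α < u)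
    (h : ∀ v ∈ Ioo α u, pt z v ∈ Ex T z P) : pt z u ∈ closure (Ex T z P) := by
  have h1 : u ∈ closure (Ioo α u) := by rw [closure_Ioo hα.ne]; exact ⟨hα.le, le_rfl⟩
  exact map_mem_closure (f := fun t => pt z t) (continuous_pt z) h1 (fun t ht => h t ht)

/-- **zones with the `J` as the base**: `cd` before, `ab` after the `J` -/
theorem zn_base815 (Z : Zn T z a b c d p q) {α β : ℝ} (hα : α < φ) (hβ : φ < β)
    (h1 : ∀ v ∈ Ioo α φ, pt z v ∈ Ex T z {c, d}) (h2 : ∀ v ∈ Ioo φ β, pt z v ∈ Ex T z {a, b}) :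
    ∃ q', Zn T z a b c d φ q' := by
  have hcA := cl_side815 hβ h2
  have hcC := cl_side815' hα h1
  obtain ⟨n, a1, a2⟩ := Z.zA _ hcA
  obtain ⟨m, a3, a4⟩ := Z.zC _ hcC
  have hl := Z.lt
  have hl' := Z.lt'
  have h5 : m ≤ n + 1 := by
    by_contra h6
    push Not at h6
    have h7 : (n : ℝ) + 2 ≤ (m : ℝ) := by exact_mod_cast (by omega : n + 2 ≤ m)
    linarith
  have h6 : n ≤ m := by
    by_contra h6
    push Not at h6
    have h7 : (m : ℝ) + 1 ≤ (n : ℝ) := by exact_mod_cast h6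
    linarith
  rcases eq_or_lt_of_le h6 with h7 | h7
  · -- on the line `q`: exact `ab`-points after it
    exfalso
    subst h7
    have e1 : φ + 3 * (n : ℝ) = q := by linarith
    obtain ⟨v, hv1, hv2⟩ := exists_between
      (show φ < min β (φ + (p + 3 - q)) from lt_min hβ (by linarith))
    have k1 := lt_of_lt_of_le hv2 (min_le_left _ _)
    have k2 := lt_of_lt_of_le hv2 (min_le_right _ _)
    obtain ⟨k, b1, b2⟩ := Z.zA v (subset_closure (h2 v ⟨hv1, k1⟩))
    have c1 : k < n := by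
      by_contra hc
      push Not at hc
      have : (n : ℝ) ≤ (k : ℝ) := by exact_mod_cast hc
      linarith
    have c2 : (k : ℝ) + 1 ≤ (n : ℝ) := by exact_mod_cast c1
    linarith
  · have h8 : m = n + 1 := by omega
    have h9 : (m : ℝ) = (n : ℝ) + 1 := by exact_mod_cast h8
    have e1 : φ + 3 * (n : ℝ) = p := by rw [h9] at a4; linarith
    have hZ := znsh815 Z (-n)
    have e2 : p + 3 * (((-n : ℤ)) : ℝ) = φ := by push_cast; linarith
    rw [e2] at hZ
    exact ⟨_, hZ⟩

/-- the label of a `J` is `5` or `6` -/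
theorem lb_J815 (hJ : T y = T z)
    (hn : ¬ ∀ᶠ t in 𝓝[>] (0 : ℝ), T (hb z y (-1) t) = {a, b}) :
    lbF g1 g2 T z a b c d e f y = 6 := by
  unfold lbF
  rw [if_pos hJ, if_neg hn]

/-- **a `J` is on a zone line**: after an exchange of the pairs it is a base with the label `6` -/
theorem base815 (h : Irr U T) (hD : DPt T z a b c d) (Z : Zn T z a b c d p q)
    (hJ : T (pt z φ) = T z) :
    (∃ q', Zn T z a b c d φ q' ∧ ∀ g1 g2 e f, lbF g1 g2 T z a b c d e f (pt z φ) = 6) ∨
    (∃ q', Zn T z c d a b φ q' ∧ ∀ g1 g2 e f, lbF g1 g2 T z c d a b e f (pt z φ) = 6) := by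
  have ne : ({a, b} : Set (Fin 6)) ≠ {c, d} := by
    intro h1
    have : a ∈ ({c, d} : Set (Fin 6)) := by rw [← h1]; simp
    rcases this with h6 | h6
    · exact hD.ac h6
    · exact hD.ad h6
  obtain ⟨τ, hτ, h1, h2⟩ := h.j_sides hD (dist_pt z φ) hJ
  rcases hτ with rfl | rfl
  · -- `cd` before, `ab` after
    left
    obtain ⟨β, hβ, k1⟩ := aft_of (P := fun y => T y = {a, b}) (z := z) (u := φ)
      (by have := ev_Ioo h1; simpa only [hb, one_mul] using this)
    obtain ⟨α, hα, k2⟩ := bef_of (P := fun y => T y = {c, d}) (z := z) (u := φ)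
      (by have := ev_Ioo h2; simpa only [hb, neg_one_mul] using this)
    obtain ⟨q', hq⟩ := zn_base815 Z hα hβ (ex_of_Ioo k2) (ex_of_Ioo k1)
    refine ⟨q', hq, fun g1 g2 e f => lb_J815 hJ fun h5 => ?_⟩
    obtain ⟨t, ht1, ht2⟩ := (h5.and h2).exists
    exact ne (by rw [← ht2, ht1])
  · -- `ab` before, `cd` after
    right
    rw [neg_neg] at h2
    obtain ⟨β, hβ, k1⟩ := aft_of (P := fun y => T y = {c, d}) (z := z) (u := φ)
      (by have := ev_Ioo h2; simpa only [hb, one_mul] using this)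
    obtain ⟨α, hα, k2⟩ := bef_of (P := fun y => T y = {a, b}) (z := z) (u := φ)
      (by have := ev_Ioo h1; simpa only [hb, neg_one_mul] using this)
    obtain ⟨q', hq⟩ := zn_base815 (znsw815 Z) hα hβ (ex_of_Ioo k2) (ex_of_Ioo k1)
    refine ⟨q', hq, fun g1 g2 e f => lb_J815 hJ fun h5 => ?_⟩
    obtain ⟨t, ht1, ht2⟩ := (h5.and h1).exists
    exact ne (by rw [← ht1, ht2])

end Vale.Agent.P032.H815
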