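import Vale.Agent.P032.H594.JOrder
import Mathlib.Data.Fintype.Basic
import Mathlib.Data.Fintype.Pi
import Mathlib.Tactic.Tauto

/-!
# P032: two `J`-partners with two `J`s each (helper815)

Over `H594/JOrder`.  Each circle has three blocks and a second `J`; in the cyclic order the blocks are
`X`, the plain block, `X'`, with the two `J`s in `X` and `X'`.

* `G1`, `G2` : the position facts of one circle, plain block 1 (resp. 2);
* `W1`, `W2` : the sign words (the eight label words: old word, W2, W3, W5);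
* `Sx` : the signs before and after the three blocks;
* `SG.kill1`, `SG.kill2` : the plain block of one circle is not between two `J`-blocks with equal signs
  of the other circle;
* `SG.j2j2` : only the old word is left, for both circles, and the blocks alternate.
-/

open Set Filter Topology Metric

namespace Vale.Agent.P032.H815

open Vale.Agent.P032.H594
open Vale.Agent.P032.H594.SG (BfS AfS)

variable {P N Z Y : Set ℝ}

/-- the signs before and after the three blocks -/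
structure Sx (P N : Set ℝ) (x0 x0' x1 x1' x2 x2' : ℝ) (s0 t0 s1 t1 s2 t2 : Bool) : Prop where
  b0 : BfS P N s0 x0
  a0 : AfS P N t0 x0'
  b1 : BfS P N s1 x1
  a1 : AfS P N t1 x1'
  b2 : BfS P N s2 x2
  a2 : AfS P N t2 x2'

/-- plain block 1, second `J` in the block 2 (`q` : equal signs at the block 2) -/
structure G1 (x0 x0' x1 x1' x2 x2' : ℝ) (q : Prop) : Prop where
  j : ∃ j, x2 ≤ j ∧ j ≤ x2' ∧ x1' ≤ j - 1 ∧ j + 1 ≤ x0 + 6
  len : x1' - x1 ≤ 1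
  gap : x2' + 1 ≤ x0 + 6
  gap' : q → x2' = x2 + 1 → x2' + 1 < x0 + 6

/-- plain block 2, second `J` in the block 1 (`q` : equal signs at the block 1) -/
structure G2 (x0 x0' x1 x1' x2 x2' : ℝ) (q : Prop) : Prop where
  j : ∃ j, x1 ≤ j ∧ j ≤ x1' ∧ x0' ≤ j - 1 ∧ j + 1 ≤ x2
  len : x2' - x2 ≤ 1
  gap : x0' + 1 ≤ x1
  gap' : q → x1' = x1 + 1 → x0' + 1 < x1

/-- the sign words with the plain block 1 -/
def W1 (s0 t0 s1 t1 s2 t2 : Bool) : Prop :=
  s1 ≠ t1 ∧ ((s0 ≠ t0 ∧ s2 = s0 ∧ t2 = t0) ∨ (s0 = t0 ∧ s2 = t2 ∧ s2 ≠ s0))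

/-- the sign words with the plain block 2 -/
def W2 (s0 t0 s1 t1 s2 t2 : Bool) : Prop :=
  s2 ≠ t2 ∧ ((s1 ≠ t1 ∧ s0 = s1 ∧ t0 = t1) ∨ (s1 = t1 ∧ s0 = t0 ∧ s0 ≠ s1))

theorem G1.sh {x0 x0' x1 x1' x2 x2' : ℝ} {q : Prop} (h : G1 x0 x0' x1 x1' x2 x2' q) (c : ℝ) :
    G1 (x0 - c) (x0' - c) (x1 - c) (x1' - c) (x2 - c) (x2' - c) q where
  j := by
    obtain ⟨j, h1, h2, h3, h4⟩ := h.j
    exact ⟨j - c, by linarith, by linarith, by linarith, by linarith⟩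
  len := by have := h.len; linarith
  gap := by have := h.gap; linarith
  gap' := fun k1 k2 => by have := h.gap' k1 (by linarith); linarith

theorem G2.sh {x0 x0' x1 x1' x2 x2' : ℝ} {q : Prop} (h : G2 x0 x0' x1 x1' x2 x2' q) (c : ℝ) :
    G2 (x0 - c) (x0' - c) (x1 - c) (x1' - c) (x2 - c) (x2' - c) q where
  j := by
    obtain ⟨j, h1, h2, h3, h4⟩ := h.j
    exact ⟨j - c, by linarith, by linarith, by linarith, by linarith⟩
  len := by have := h.len; linarith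
  gap := by have := h.gap; linarith
  gap' := fun k1 k2 => by have := h.gap' k1 (by linarith); linarith

theorem Eqs.sh815 {b b' c : ℝ} (h : Eqs P N b b') :
    Eqs {t | t + c ∈ P} {t | t + c ∈ N} (b - c) (b' - c) := by
  rcases h with h | h
  · exact Or.inl ⟨bf_sh h.1, af_sh h.2⟩
  · exact Or.inr ⟨bf_sh h.1, af_sh h.2⟩

theorem dif_of815 {s t : Bool} {x x' : ℝ} (h : BfS P N s x) (h' : AfS P N t x') (hne : s ≠ t) :
    Dif P N x x' := by
  cases s <;> cases t <;> first | exact absurd rfl hne | skip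
  · exact Or.inr ⟨h, h'⟩
  · exact Or.inl ⟨h, h'⟩

theorem eqs_of815 {s t : Bool} {x x' : ℝ} (h : BfS P N s x) (h' : AfS P N t x') (he : s = t) :
    Eqs P N x x' := by
  subst he
  cases s
  · exact Or.inr ⟨h, h'⟩
  · exact Or.inl ⟨h, h'⟩

theorem uniq815 (S : SG P N Z Y) {s t : Bool} {x : ℝ} (h : BfS P N s x) (h' : BfS P N t x) :
    s = t := by
  cases s <;> cases t <;> first | rfl | skip
  · exact (S.not_both_bf h' h).elim
  · exact (S.not_both_bf h h').elim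

/-- the sign is constant in a gap, Boolean form -/
theorem gapS815 (S : SG P N Z Y) {x x' : ℝ} (hx : x ≤ x') {s : Bool} (h : AfS P N s x)
    (hg : ∀ t ∈ Ioo x x', t ∉ Z ∧ t ∉ Y) (he : x = x' → x ∈ Z ∧ x ∈ Y) : BfS P N s x' := by
  cases s
  · exact S.neg.gap hx h hg he
  · exact S.gap hx h hg he

variable {z0 z0' z1 z1' z2 z2' y0 y0' y1 y1' y2 y2' : ℝ}

/-- **(EQ) at a second `J` in the block 2** -/
theorem eq2_815 {q : Prop} (S : SG P N Z Y) (BZ : Blk Z 0 z0 z0' z1 z1' z2 z2')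
    (G : G1 z0 z0' z1 z1' z2 z2' q) (e : Eqs P N z2 z2') : z2' = z2 + 1 ∧ z2 ∈ Y ∧ z2' ∈ Y := by
  have Za := BZ.a0; have Zb := BZ.b0; have Zc := BZ.c0; have Zd := BZ.d0; have Ze := BZ.a1
  have Zf := BZ.b1; have Zg := BZ.c1; have Zh := BZ.a2; have Zi := BZ.b2; have Zj := BZ.c2
  obtain ⟨j, j1, j2, j3, j4⟩ := G.j
  have hl : ∀ t, z1' < t → t < z2 → t ∉ Z := fun t h1 h2 => by
    rw [BZ.mem t (by linarith) (by linarith)]
    rintro (k | k | k)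
    · linarith [k.2]
    · linarith [k.2]
    · linarith [k.1]
  have hr : ∀ t, z2' < t → t < z0 + 6 → t ∉ Z := fun t h1 h2 => by
    rcases le_or_gt t 5 with h3 | h3
    · rw [BZ.mem t (by linarith) (by linarith)]
      rintro (k | k | k)
      · linarith [k.2]
      · linarith [k.2]
      · linarith [k.2]
    · rw [← S.zper, BZ.mem (t - 6) (by linarith) (by linarith)]
      rintro (k | k | k)
      · linarith [k.1]
      · linarith [k.1]
      · linarith [k.1]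
  refine S.eq_block' Zi.le (fun s hs => (BZ.mem s (by linarith [hs.1]) (by linarith [hs.2])).2
    (Or.inr (Or.inr ⟨hs.1, hs.2⟩))) (fun t h1 h2 => hl t (by linarith) h2)
    (fun t h1 h2 => hr t h1 (by linarith)) ?_ ?_ e
  · exact bf_of (δ := z2 - z1') (by linarith) fun t h1 h2 => hl t (by linarith) h2
  · exact af_of (δ := z0 + 6 - z2') (by linarith) fun t h1 h2 => hr t h1 (by linarith)

/-- **(EQ) at a second `J` in the block 1** -/
theorem eq1_815 {q : Prop} (S : SG P N Z Y) (BZ : Blk Z 0 z0 z0' z1 z1' z2 z2')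
    (G : G2 z0 z0' z1 z1' z2 z2' q) (e : Eqs P N z1 z1') : z1' = z1 + 1 ∧ z1 ∈ Y ∧ z1' ∈ Y := by
  have Za := BZ.a0; have Zb := BZ.b0; have Zc := BZ.c0; have Zd := BZ.d0; have Ze := BZ.a1
  have Zf := BZ.b1; have Zg := BZ.c1; have Zh := BZ.a2; have Zi := BZ.b2; have Zj := BZ.c2
  obtain ⟨j, j1, j2, j3, j4⟩ := G.j
  have hl : ∀ t, z0' < t → t < z1 → t ∉ Z := fun t h1 h2 => by
    rw [BZ.mem t (by linarith) (by linarith)]
    rintro (k | k | k)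
    · linarith [k.2]
    · linarith [k.1]
    · linarith [k.1]
  have hr : ∀ t, z1' < t → t < z2 → t ∉ Z := fun t h1 h2 => by
    rw [BZ.mem t (by linarith) (by linarith)]
    rintro (k | k | k)
    · linarith [k.2]
    · linarith [k.2]
    · linarith [k.1]
  refine S.eq_block' Zf.le (fun s hs => (BZ.mem s (by linarith [hs.1]) (by linarith [hs.2])).2
    (Or.inr (Or.inl ⟨hs.1, hs.2⟩))) (fun t h1 h2 => hl t (by linarith) h2)
    (fun t h1 h2 => hr t h1 (by linarith)) ?_ ?_ e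
  · exact bf_of (δ := z1 - z0') (by linarith) fun t h1 h2 => hl t (by linarith) h2
  · exact af_of (δ := z2 - z1') (by linarith) fun t h1 h2 => hr t h1 (by linarith)

/-- **the plain block 1 of the partner is not between the blocks 2 and 0 with equal signs** -/
theorem kill1_815 {q : Prop} (S : SG P N Z Y) (BZ : Blk Z 0 z0 z0' z1 z1' z2 z2')
    (BY : Blk Y 3 y0 y0' y1 y1' y2 y2') (G : G1 z0 z0' z1 z1' z2 z2' q) (hq : q)
    (hy : y1' - y1 ≤ 1) (_ : z2' ≤ y1) (e0 : Eqs P N z0 z0') (e2 : Eqs P N z2 z2') : False := by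
  have Za := BZ.a0; have Zb := BZ.b0; have Zc := BZ.c0; have Zd := BZ.d0; have Ze := BZ.a1
  have Zf := BZ.b1; have Zg := BZ.c1; have Zh := BZ.a2; have Zi := BZ.b2; have Zj := BZ.c2
  have Ya := BY.a0; have Yb := BY.b0; have Yc := BY.c0; have Yd := BY.d0; have Ye := BY.a1
  have Yf := BY.b1; have Yg := BY.c1; have Yh := BY.a2; have Yi := BY.b2; have Yj := BY.c2
  obtain ⟨-, h1, -⟩ := S.eqZ BZ BY e0
  obtain ⟨h3, -, h2⟩ := eq2_815 S BZ G e2
  obtain ⟨-, oy⟩ := S.oY BZ BY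
  rw [BY.mem z2' (by linarith) (by linarith)] at h2
  have hg := G.gap' hq h3
  rcases h2 with k | k | k
  · linarith [k.2]
  · linarith [k.1]
  · linarith [k.1]

/-- **the plain block 2 of the partner is not between the blocks 0 and 1 with equal signs** -/
theorem kill2_815 {q : Prop} (S : SG P N Z Y) (BZ : Blk Z 0 z0 z0' z1 z1' z2 z2')
    (BY : Blk Y 3 y0 y0' y1 y1' y2 y2') (G : G2 z0 z0' z1 z1' z2 z2' q) (hq : q)
    (hy : y2' - y2 ≤ 1) (_ : y2' - 6 ≤ z1) (e0 : Eqs P N z0 z0') (e1 : Eqs P N z1 z1') : False := by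
  have Za := BZ.a0; have Zb := BZ.b0; have Zc := BZ.c0; have Zd := BZ.d0; have Ze := BZ.a1
  have Zf := BZ.b1; have Zg := BZ.c1; have Zh := BZ.a2; have Zi := BZ.b2; have Zj := BZ.c2
  have Ya := BY.a0; have Yb := BY.b0; have Yc := BY.c0; have Yd := BY.d0; have Ye := BY.a1
  have Yf := BY.b1; have Yg := BY.c1; have Yh := BY.a2; have Yi := BY.b2; have Yj := BY.c2
  obtain ⟨-, -, h1⟩ := S.eqZ BZ BY e0
  obtain ⟨h3, h2, -⟩ := eq1_815 S BZ G e1
  obtain ⟨oy, -⟩ := S.oY BZ BY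
  rw [← S.pY, BY.mem (z1 + 6) (by linarith) (by linarith)] at h2
  have hg := G.gap' hq h3
  rcases h2 with k | k | k
  · linarith [k.2]
  · linarith [k.2]
  · linarith [k.2]

/-- two blocks of different circles are ordered -/
theorem order815 (S : SG P N Z Y) {b b' c c' : ℝ} (hB : ∀ s, b ≤ s → s ≤ b' → s ∈ Z)
    (hC : ∀ s, c ≤ s → s ≤ c' → s ∈ Y) (hb : b < b') (hc : c < c') : b' ≤ c ∨ c' ≤ b := by
  by_contra hcon
  push Not at hcon
  obtain ⟨h1, h2⟩ := hcon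
  obtain ⟨t, ht1, ht2⟩ := exists_between
    (show max b c < min b' c' from max_lt (lt_min hb h2) (lt_min h1 hc))
  have k1 := lt_of_le_of_lt (le_max_left b c) ht1
  have k2 := lt_of_le_of_lt (le_max_right b c) ht1
  have k3 := lt_of_lt_of_le ht2 (min_le_left b' c')
  have k4 := lt_of_lt_of_le ht2 (min_le_right b' c')
  exact S.not_Y (b := b) (b' := b') (fun s hs => hB s hs.1 hs.2) k1 k3 (hC t k2.le k4.le)

variable {s0 t0 s1 t1 s2 t2 u0 v0 u1 v1 u2 v2 : Bool}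

/-- the links of the alternating order, Boolean form -/
theorem links815 (S : SG P N Z Y) (BZ : Blk Z 0 z0 z0' z1 z1' z2 z2')
    (BY : Blk Y 3 y0 y0' y1 y1' y2 y2') (o1 : y2' - 6 ≤ z1) (o2 : z2' ≤ y1)
    (SZ : Sx P N z0 z0' z1 z1' z2 z2' s0 t0 s1 t1 s2 t2)
    (SY : Sx P N y0 y0' y1 y1' y2 y2' u0 v0 u1 v1 u2 v2) :
    t0 = u2 ∧ v2 = s1 ∧ t1 = u0 ∧ v0 = s2 ∧ t2 = u1 ∧ v1 = s0 := by
  have L := S.links BZ BY o1 o2
  have M := S.neg.links BZ BY o1 o2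
  refine ⟨?_, ?_, ?_, ?_, ?_, ?_⟩
  · refine uniq815 S ?_ SY.b2
    have h := SZ.a0
    cases t0
    · exact M.1 h
    · exact L.1 h
  · refine uniq815 S ?_ SZ.b1
    have h := SY.a2
    cases v2
    · exact M.2.1 h
    · exact L.2.1 h
  · refine uniq815 S ?_ SY.b0
    have h := SZ.a1
    cases t1
    · exact M.2.2.1 h
    · exact L.2.2.1 h
  · refine uniq815 S ?_ SZ.b2
    have h := SY.a0
    cases v0
    · exact M.2.2.2.1 h
    · exact L.2.2.2.1 h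
  · refine uniq815 S ?_ SY.b1
    have h := SZ.a2
    cases t2
    · exact M.2.2.2.2.1 h
    · exact L.2.2.2.2.1 h
  · refine uniq815 S ?_ SZ.b0
    have h := SY.a1
    cases v1
    · exact M.2.2.2.2.2 h
    · exact L.2.2.2.2.2 h

/-- the blocks of `Z` in `(3, 5)` and of `Y` in `(4, 6)` in the right order -/
theorem ordA815 (S : SG P N Z Y) (BZ : Blk Z 0 z0 z0' z1 z1' z2 z2')
    (BY : Blk Y 3 y0 y0' y1 y1' y2 y2')
    (SZ : Sx P N z0 z0' z1 z1' z2 z2' s0 t0 s1 t1 s2 t2)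
    (SY : Sx P N y0 y0' y1 y1' y2 y2' u0 v0 u1 v1 u2 v2)
    (h : s2 ≠ t2 ∨ u1 ≠ v1 ∨ v0 ≠ u1) : z2' ≤ y1 := by
  have Za := BZ.a0; have Zb := BZ.b0; have Zc := BZ.c0; have Zd := BZ.d0; have Ze := BZ.a1
  have Zf := BZ.b1; have Zg := BZ.c1; have Zh := BZ.a2; have Zi := BZ.b2; have Zj := BZ.c2
  have Ya := BY.a0; have Yb := BY.b0; have Yc := BY.c0; have Yd := BY.d0; have Ye := BY.a1
  have Yf := BY.b1; have Yg := BY.c1; have Yh := BY.a2; have Yi := BY.b2; have Yj := BY.c2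
  rcases h with h | h | h
  · exact (S.ord2 BZ BY (dif_of815 SZ.b2 SZ.a2 h)).2
  · exact (S.ord1' BZ BY (dif_of815 SY.b1 SY.a1 h)).1
  · rcases order815 S (b := z2) (b' := z2') (c := y1) (c' := y1')
      (fun s h1 h2 => (BZ.mem s (by linarith) (by linarith)).2 (Or.inr (Or.inr ⟨h1, h2⟩)))
      (fun s h1 h2 => (BY.mem s (by linarith) (by linarith)).2 (Or.inr (Or.inl ⟨h1, h2⟩))) Zi Yf
      with k | k
    · exact k
    · exfalso
      obtain ⟨oy, -⟩ := S.oY BZ BY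
      refine h (uniq815 S (gapS815 S (x := y0') (x' := y1) (by linarith) SY.a0 ?_ ?_) SY.b1)
      · intro t ht
        refine ⟨?_, ?_⟩
        · rw [BZ.mem t (by linarith [ht.1]) (by linarith [ht.2])]
          rintro (k' | k' | k')
          · linarith [k'.2, ht.1]
          · linarith [k'.2, ht.1]
          · linarith [k'.1, ht.2]
        · rw [BY.mem t (by linarith [ht.1]) (by linarith [ht.2])]
          rintro (k' | k' | k')
          · linarith [k'.2, ht.1]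
          · linarith [k'.1, ht.2]
          · linarith [k'.1, ht.2]
      · intro he
        linarith

/-- the blocks of `Y` in `(6, 8)` and of `Z` in `(1, 3)` in the right order -/
theorem ordB815 (S : SG P N Z Y) (BZ : Blk Z 0 z0 z0' z1 z1' z2 z2')
    (BY : Blk Y 3 y0 y0' y1 y1' y2 y2')
    (SZ : Sx P N z0 z0' z1 z1' z2 z2' s0 t0 s1 t1 s2 t2)
    (SY : Sx P N y0 y0' y1 y1' y2 y2' u0 v0 u1 v1 u2 v2)
    (h : s1 ≠ t1 ∨ u2 ≠ v2 ∨ t0 ≠ s1) : y2' - 6 ≤ z1 := by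
  have Za := BZ.a0; have Zb := BZ.b0; have Zc := BZ.c0; have Zd := BZ.d0; have Ze := BZ.a1
  have Zf := BZ.b1; have Zg := BZ.c1; have Zh := BZ.a2; have Zi := BZ.b2; have Zj := BZ.c2
  have Ya := BY.a0; have Yb := BY.b0; have Yc := BY.c0; have Yd := BY.d0; have Ye := BY.a1
  have Yf := BY.b1; have Yg := BY.c1; have Yh := BY.a2; have Yi := BY.b2; have Yj := BY.c2
  rcases h with h | h | h
  · exact (S.ord1 BZ BY (dif_of815 SZ.b1 SZ.a1 h)).1
  · exact (S.ord2' BZ BY (dif_of815 SY.b2 SY.a2 h)).2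
  · rcases order815 S (b := z1) (b' := z1') (c := y2 - 6) (c' := y2' - 6)
      (fun s h1 h2 => (BZ.mem s (by linarith) (by linarith)).2 (Or.inr (Or.inl ⟨h1, h2⟩)))
      (fun s h1 h2 => by
        rw [← S.pY s]
        exact (BY.mem (s + 6) (by linarith) (by linarith)).2
          (Or.inr (Or.inr ⟨by linarith, by linarith⟩))) Zf (by linarith)
      with k | k
    · exfalso
      obtain ⟨oy, -⟩ := S.oY BZ BY
      obtain ⟨oz, oz'⟩ := S.oZ BZ BY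
      refine h (uniq815 S (gapS815 S (x := z0') (x' := z1) (by linarith) SZ.a0 ?_ ?_) SZ.b1)
      · intro t ht
        refine ⟨?_, ?_⟩
        · rw [BZ.mem t (by linarith [ht.1]) (by linarith [ht.2])]
          rintro (k' | k' | k')
          · linarith [k'.2, ht.1]
          · linarith [k'.1, ht.2]
          · linarith [k'.1, ht.2]
        · rcases le_or_gt t 2 with h3 | h3
          · rw [← S.pY, BY.mem (t + 6) (by linarith [ht.1]) (by linarith [ht.2])]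
            rintro (k' | k' | k')
            · linarith [k'.2, ht.1]
            · linarith [k'.2, ht.1]
            · linarith [k'.1, ht.2]
          · rw [BY.mem t (by linarith [ht.1]) (by linarith [ht.2])]
            rintro (k' | k' | k')
            · linarith [k'.1, ht.2]
            · linarith [k'.1, ht.2]
            · linarith [k'.1, ht.2]
      · intro he
        linarith
    · exact k

theorem fin11 : ∀ s0 t0 s1 t1 s2 t2 : Bool, W1 s0 t0 s1 t1 s2 t2 → W1 t1 s2 t2 s0 t0 s1 →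
    ((s1 = s0 ∧ s2 = s0 ∧ t0 = !s0 ∧ t1 = !s0 ∧ t2 = !s0) ∨ (t1 = s2 ∧ t0 = s1) ∨
      (s0 = t0 ∧ s2 = t2)) := by
  intro s0 t0 s1 t1 s2 t2 h h'
  unfold W1 at h
  unfold W1 at h'
  revert h h'
  cases s0 <;> cases t0 <;> cases s1 <;> cases t1 <;> cases s2 <;> cases t2 <;> decide

theorem fin22 : ∀ s0 t0 s1 t1 s2 t2 : Bool, W2 s0 t0 s1 t1 s2 t2 → W2 t1 s2 t2 s0 t0 s1 →
    ((s1 = s0 ∧ s2 = s0 ∧ t0 = !s0 ∧ t1 = !s0 ∧ t2 = !s0) ∨ (t1 = s2 ∧ t2 = s0) ∨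
      (s0 = t0 ∧ s1 = t1)) := by
  intro s0 t0 s1 t1 s2 t2 h h'
  unfold W2 at h
  unfold W2 at h'
  revert h h'
  cases s0 <;> cases t0 <;> cases s1 <;> cases t1 <;> cases s2 <;> cases t2 <;> decide

theorem fin12 : ∀ s0 t0 s1 t1 s2 t2 : Bool, W1 s0 t0 s1 t1 s2 t2 → W2 t1 s2 t2 s0 t0 s1 →
    (s1 = s0 ∧ s2 = s0 ∧ t0 = !s0 ∧ t1 = !s0 ∧ t2 = !s0) := by
  intro s0 t0 s1 t1 s2 t2 h h'
  unfold W1 at h
  unfold W2 at h'
  revert h h'
  cases s0 <;> cases t0 <;> cases s1 <;> cases t1 <;> cases s2 <;> cases t2 <;> decide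

theorem fin21 : ∀ s0 t0 s1 t1 s2 t2 : Bool, W2 s0 t0 s1 t1 s2 t2 → W1 t1 s2 t2 s0 t0 s1 →
    (s1 = s0 ∧ s2 = s0 ∧ t0 = !s0 ∧ t1 = !s0 ∧ t2 = !s0) := by
  intro s0 t0 s1 t1 s2 t2 h h'
  unfold W2 at h
  unfold W1 at h'
  revert h h'
  cases s0 <;> cases t0 <;> cases s1 <;> cases t1 <;> cases s2 <;> cases t2 <;> decide

theorem ordA_fin : ∀ s0 t0 s1 t1 s2 t2 u0 v0 u1 v1 u2 v2 : Bool,
    (W1 s0 t0 s1 t1 s2 t2 ∨ W2 s0 t0 s1 t1 s2 t2) → (W1 u0 v0 u1 v1 u2 v2 ∨ W2 u0 v0 u1 v1 u2 v2) →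
    (s2 ≠ t2 ∨ u1 ≠ v1 ∨ v0 ≠ u1) := by
  intro s0 t0 s1 t1 s2 t2 u0 v0 u1 v1 u2 v2 _ h
  revert h
  unfold W1 W2
  revert u0 v0 u1 v1 u2 v2
  intro u0 v0 u1 v1 u2 v2
  revert u0 v0 u1 v1 u2 v2
  have key : ∀ u0 v0 u1 v1 u2 v2 : Bool,
      (u1 ≠ v1 ∧ ((u0 ≠ v0 ∧ u2 = u0 ∧ v2 = v0) ∨ (u0 = v0 ∧ u2 = v2 ∧ u2 ≠ u0))) ∨
      (u2 ≠ v2 ∧ ((u1 ≠ v1 ∧ u0 = u1 ∧ v0 = v1) ∨ (u1 = v1 ∧ u0 = v0 ∧ u0 ≠ u1))) →
      (u1 ≠ v1 ∨ v0 ≠ u1) := by decide
  intro u0 v0 u1 v1 u2 v2 h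
  exact Or.inr (key u0 v0 u1 v1 u2 v2 h)

theorem ordB_fin : ∀ s0 t0 s1 t1 s2 t2 : Bool,
    (W1 s0 t0 s1 t1 s2 t2 ∨ W2 s0 t0 s1 t1 s2 t2) → (s1 ≠ t1 ∨ t0 ≠ s1) := by
  unfold W1 W2; decide

/-- **`J2-J2`: only the old word is left** -/
theorem j2j2_815 (S : SG P N Z Y) (BZ : Blk Z 0 z0 z0' z1 z1' z2 z2')
    (BY : Blk Y 3 y0 y0' y1 y1' y2 y2')
    (SZ : Sx P N z0 z0' z1 z1' z2 z2' s0 t0 s1 t1 s2 t2)
    (SY : Sx P N y0 y0' y1 y1' y2 y2' u0 v0 u1 v1 u2 v2)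
    (HZ : (G1 z0 z0' z1 z1' z2 z2' (s2 = t2) ∧ W1 s0 t0 s1 t1 s2 t2) ∨
      (G2 z0 z0' z1 z1' z2 z2' (s1 = t1) ∧ W2 s0 t0 s1 t1 s2 t2))
    (HY : (G1 y0 y0' y1 y1' y2 y2' (u2 = v2) ∧ W1 u0 v0 u1 v1 u2 v2) ∨
      (G2 y0 y0' y1 y1' y2 y2' (u1 = v1) ∧ W2 u0 v0 u1 v1 u2 v2)) :
    (s1 = s0 ∧ s2 = s0 ∧ t0 = !s0 ∧ t1 = !s0 ∧ t2 = !s0) ∧
      (u0 = !s0 ∧ u1 = !s0 ∧ u2 = !s0 ∧ v0 = s0 ∧ v1 = s0 ∧ v2 = s0) ∧
      y2' - 6 ≤ z1 ∧ z2' ≤ y1 := by
  have o1 : y2' - 6 ≤ z1 := by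
    refine ordB815 S BZ BY SZ SY ?_
    have h := ordB_fin s0 t0 s1 t1 s2 t2 (HZ.imp (fun h => h.2) fun h => h.2)
    tauto
  have o2 : z2' ≤ y1 := ordA815 S BZ BY SZ SY
    (ordA_fin s0 t0 s1 t1 s2 t2 u0 v0 u1 v1 u2 v2 (HZ.imp (fun h => h.2) fun h => h.2)
      (HY.imp (fun h => h.2) fun h => h.2))
  obtain ⟨l1, l2, l3, l4, l5, l6⟩ := links815 S BZ BY o1 o2 SZ SY
  have l2 := l2.symm
  have l4 := l4.symm
  have l6 := l6.symm
  subst l1
  subst l2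
  subst l3
  subst l4
  subst l5
  subst l6
  have goal : (s1 = s0 ∧ s2 = s0 ∧ t0 = !s0 ∧ t1 = !s0 ∧ t2 = !s0) := by
    have S' := S.swap.shift 3
    have BZ' := BY.half
    have BY' := BZ.half' S.pZ
    rcases HZ with ⟨gz, wz⟩ | ⟨gz, wz⟩ <;> rcases HY with ⟨gy, wy⟩ | ⟨gy, wy⟩
    · rcases fin11 _ _ _ _ _ _ wz wy with h | ⟨h1, h2⟩ | ⟨h1, h2⟩
      · exact h
      · exfalso
        refine kill1_815 S' BZ' BY' (gy.sh 3) h2 ?_ ?_ (Eqs.sh815 (eqs_of815 SY.b0 SY.a0 h1))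
          (Eqs.sh815 (eqs_of815 SY.b2 SY.a2 h2))
        · have := gz.len; linarith
        · linarith
      · exact (kill1_815 S BZ BY gz h2 gy.len o2 (eqs_of815 SZ.b0 SZ.a0 h1)
          (eqs_of815 SZ.b2 SZ.a2 h2)).elim
    · exact fin12 _ _ _ _ _ _ wz wy
    · exact fin21 _ _ _ _ _ _ wz wy
    · rcases fin22 _ _ _ _ _ _ wz wy with h | ⟨h1, h2⟩ | ⟨h1, h2⟩
      · exact h
      · exfalso
        refine kill2_815 S' BZ' BY' (gy.sh 3) h2 ?_ ?_ (Eqs.sh815 (eqs_of815 SY.b0 SY.a0 h1))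
          (Eqs.sh815 (eqs_of815 SY.b1 SY.a1 h2))
        · have := gz.len; linarith
        · linarith
      · exact (kill2_815 S BZ BY gz h2 gy.len o1 (eqs_of815 SZ.b0 SZ.a0 h1)
          (eqs_of815 SZ.b1 SZ.a1 h2)).elim
  obtain ⟨h1, h2, h3, h4, h5⟩ := goal
  subst h1 h2 h3 h4 h5
  exact ⟨⟨rfl, rfl, rfl, rfl, rfl⟩, ⟨rfl, rfl, rfl, rfl, rfl, rfl⟩, o1, o2⟩

end Vale.Agent.P032.H815
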