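import Vale.Agent.P032.H546.FFin
import Vale.Agent.P032.H987.Arcs
import Vale.Agent.P032.H815.JTwo

/-!
# P032: the circle of a comp centre with two `J`s, read from the word tables (helper815)

Over `H546/FFin` (`list2`, `list3`) and `H987/Arcs`.  `R1`, `R2` : the two types of circles (the plain
block 1, resp. 2), seen from a `J` with the label `6` in the direction `p`; directions relative to
`p`; letters as Booleans (`true` = `e`).

* `r1_815`, `r2_815` : from `list2`, `list3`.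
-/

open Set Filter Topology Metric

noncomputable section

namespace Vale.Agent.P032.H815

open Vale.Agent.P032.Six Vale.Agent.P032.S5.H767 Vale.Agent.P032.S5.H349
  Vale.Agent.P032.S5.H450
open Vale.Agent.P032.H987 hiding lb
open Vale.Agent.P032.H546 (Lst wds2 wds3 Cnt list2 list3)

variable {U : Fin 6 → Set ℂ} {T : ℂ → Set (Fin 6)} {z : ℂ} {a b c d e f : Fin 6} {p q : ℝ}

/-! ### Labels -/

/-- label of the end of an `ab`-arc -/
def lA' (s : Bool) : ℕ := cond s 1 7

/-- label of the start of an `ab`-arc -/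
def lA (s : Bool) : ℕ := cond s 2 8

/-- label of the end of a `cd`-arc -/
def lC' (s : Bool) : ℕ := cond s 9 3

/-- label of the start of a `cd`-arc -/
def lC (s : Bool) : ℕ := cond s 10 4

theorem w1_815 : ∀ w ∈ wds2, ∃ s0 t0 s1 t1 s2 t2 : Bool, W1 s0 t0 s1 t1 s2 t2 ∧
    w = [6, lA' t0, lC s1, lC' t1, lA s2, 5, lC' t2, lC s0] := by
  intro w hw
  simp only [wds2, List.mem_cons, List.not_mem_nil, or_false] at hw
  rcases hw with rfl | rfl | rfl | rfl | rfl | rfl | rfl | rfl
  · exact ⟨true, false, true, false, true, false, by unfold W1; decide, rfl⟩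
  · exact ⟨false, true, false, true, false, true, by unfold W1; decide, rfl⟩
  · exact ⟨false, false, true, false, true, true, by unfold W1; decide, rfl⟩
  · exact ⟨true, true, false, true, false, false, by unfold W1; decide, rfl⟩
  · exact ⟨true, false, false, true, true, false, by unfold W1; decide, rfl⟩
  · exact ⟨true, true, true, false, false, false, by unfold W1; decide, rfl⟩
  · exact ⟨false, false, false, true, true, true, by unfold W1; decide, rfl⟩
  · exact ⟨false, true, true, false, false, true, by unfold W1; decide, rfl⟩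

theorem w2_815 : ∀ w ∈ wds3, ∃ s0 t0 s1 t1 s2 t2 : Bool, W2 s0 t0 s1 t1 s2 t2 ∧
    w = [6, lA' t0, lA s1, 5, lC' t1, lA s2, lA' t2, lC s0] := by
  intro w hw
  simp only [wds3, List.mem_cons, List.not_mem_nil, or_false] at hw
  rcases hw with rfl | rfl | rfl | rfl | rfl | rfl | rfl | rfl
  · exact ⟨true, false, true, false, true, false, by unfold W2; decide, rfl⟩
  · exact ⟨true, false, true, false, false, true, by unfold W2; decide, rfl⟩
  · exact ⟨false, true, false, true, false, true, by unfold W2; decide, rfl⟩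
  · exact ⟨false, false, true, true, false, true, by unfold W2; decide, rfl⟩
  · exact ⟨true, true, false, false, false, true, by unfold W2; decide, rfl⟩
  · exact ⟨false, true, false, true, true, false, by unfold W2; decide, rfl⟩
  · exact ⟨true, true, false, false, true, false, by unfold W2; decide, rfl⟩
  · exact ⟨false, false, true, true, true, false, by unfold W2; decide, rfl⟩

theorem fA' {x : Fin 11} {s : Bool} (h : x.val = lA' s) : aft x = 0 ∧ x ≠ 0 := by
  cases s
  · have : x = 7 := Fin.ext h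
    subst this; exact ⟨rfl, by decide⟩
  · have : x = 1 := Fin.ext h
    subst this; exact ⟨rfl, by decide⟩

theorem fA {x : Fin 11} {s : Bool} (h : x.val = lA s) : aft x = 1 ∧ x ≠ 0 := by
  cases s
  · have : x = 8 := Fin.ext h
    subst this; exact ⟨rfl, by decide⟩
  · have : x = 2 := Fin.ext h
    subst this; exact ⟨rfl, by decide⟩

theorem fC' {x : Fin 11} {s : Bool} (h : x.val = lC' s) : aft x = 0 ∧ x ≠ 0 := by
  cases s
  · have : x = 3 := Fin.ext h
    subst this; exact ⟨rfl, by decide⟩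
  · have : x = 9 := Fin.ext h
    subst this; exact ⟨rfl, by decide⟩

theorem fC {x : Fin 11} {s : Bool} (h : x.val = lC s) : aft x = 2 ∧ x ≠ 0 := by
  cases s
  · have : x = 4 := Fin.ext h
    subst this; exact ⟨rfl, by decide⟩
  · have : x = 10 := Fin.ext h
    subst this; exact ⟨rfl, by decide⟩

/-- the palettes of the labels -/
theorem lbF_pal (y : ℂ) (n : ℕ) (h : (lbF true true T z a b c d e f y).val = n) : n = 0 ∨
    ((n = 5 ∨ n = 6) ∧ T y = T z) ∨ ((n = 1 ∨ n = 2) ∧ T y = {a, b, e}) ∨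
    ((n = 3 ∨ n = 4) ∧ T y = {c, d, f}) ∨ ((n = 7 ∨ n = 8) ∧ T y = {a, b, f}) ∨
    ((n = 9 ∨ n = 10) ∧ T y = {c, d, e}) := by
  subst h
  unfold lbF
  by_cases h1 : T y = T z
  · rw [if_pos h1]
    right; left
    refine ⟨?_, h1⟩
    split_ifs
    · exact Or.inl rfl
    · exact Or.inr rfl
  rw [if_neg h1]
  by_cases h2 : T y = {a, b, e}
  · rw [if_pos h2]
    right; right; left
    refine ⟨?_, h2⟩
    split_ifs
    · exact Or.inl rfl
    · exact Or.inr rfl
  rw [if_neg h2]
  by_cases h3 : T y = {c, d, f}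
  · rw [if_pos h3]
    right; right; right; left
    refine ⟨?_, h3⟩
    split_ifs
    · exact Or.inl rfl
    · exact Or.inr rfl
  rw [if_neg h3]
  by_cases h4 : true = true ∧ T y = {a, b, f} ∧ y ∈ closure (Ex T z {a, b})
  · rw [if_pos h4]
    right; right; right; right; left
    refine ⟨?_, h4.2.1⟩
    split_ifs
    · exact Or.inl rfl
    · exact Or.inr rfl
  rw [if_neg h4]
  by_cases h5 : true = true ∧ T y = {c, d, e} ∧ y ∈ closure (Ex T z {c, d})
  · rw [if_pos h5]
    right; right; right; right; right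
    refine ⟨?_, h5.2.1⟩
    split_ifs
    · exact Or.inl rfl
    · exact Or.inr rfl
  rw [if_neg h5]
  exact Or.inl rfl

theorem pA' {y : ℂ} {s : Bool} (h : (lbF true true T z a b c d e f y).val = lA' s) :
    T y = {a, b, cond s e f} := by
  cases s
  · have := lbF_pal y 7 h
    simpa using this
  · have := lbF_pal y 1 h
    simpa using this

theorem pA {y : ℂ} {s : Bool} (h : (lbF true true T z a b c d e f y).val = lA s) :
    T y = {a, b, cond s e f} := by
  cases s
  · have := lbF_pal y 8 h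
    simpa using this
  · have := lbF_pal y 2 h
    simpa using this

theorem pC' {y : ℂ} {s : Bool} (h : (lbF true true T z a b c d e f y).val = lC' s) :
    T y = {c, d, cond s e f} := by
  cases s
  · have := lbF_pal y 3 h
    simpa using this
  · have := lbF_pal y 9 h
    simpa using this

theorem pC {y : ℂ} {s : Bool} (h : (lbF true true T z a b c d e f y).val = lC s) :
    T y = {c, d, cond s e f} := by
  cases s
  · have := lbF_pal y 4 h
    simpa using this
  · have := lbF_pal y 10 h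
    simpa using this

theorem pJ {y : ℂ} {n : ℕ} (hn : n = 5 ∨ n = 6)
    (h : (lbF true true T z a b c d e f y).val = n) : T y = T z := by
  rcases hn with rfl | rfl
  · have := lbF_pal y 5 h
    simpa using this
  · have := lbF_pal y 6 h
    simpa using this

/-! ### Lists of eight entries -/

theorem eight815 {l : List (ℝ × ℕ)} {k0 k1 k2 k3 k4 k5 k6 k7 : ℕ}
    (h : l.map Prod.snd = [k0, k1, k2, k3, k4, k5, k6, k7]) :
    ∃ r0 r1 r2 r3 r4 r5 r6 r7 : ℝ, l = [(r0, k0), (r1, k1), (r2, k2), (r3, k3), (r4, k4), (r5, k5),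
      (r6, k6), (r7, k7)] := by
  rcases l with _ | ⟨x0, _ | ⟨x1, _ | ⟨x2, _ | ⟨x3, _ | ⟨x4, _ | ⟨x5, _ | ⟨x6, _ | ⟨x7, _ |
    ⟨x8, l⟩⟩⟩⟩⟩⟩⟩⟩⟩ <;> simp only [List.map_cons, List.map_nil, List.cons.injEq, reduceCtorEq,
      and_false, and_true] at h
  obtain ⟨h0, h1, h2, h3, h4, h5, h6, h7⟩ := h
  subst h0 h1 h2 h3 h4 h5 h6 h7
  exact ⟨_, _, _, _, _, _, _, _, rfl⟩

/-- eight labelled directions -/
structure R8 (T : ℂ → Set (Fin 6)) (z : ℂ) (a b c d e f : Fin 6) (p r1 r2 r3 r4 r5 r6 r7 : ℝ)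
    (k1 k2 k3 k4 k5 k6 k7 : ℕ) : Prop where
  h1 : 0 < r1
  h2 : r1 < r2
  h3 : r2 < r3
  h4 : r3 < r4
  h5 : r4 < r5
  h6 : r5 < r6
  h7 : r6 < r7
  h8 : r7 < 6
  L0 : (lbF true true T z a b c d e f (pt z p)).val = 6
  L1 : (lbF true true T z a b c d e f (pt z (p + r1))).val = k1
  L2 : (lbF true true T z a b c d e f (pt z (p + r2))).val = k2
  L3 : (lbF true true T z a b c d e f (pt z (p + r3))).val = k3
  L4 : (lbF true true T z a b c d e f (pt z (p + r4))).val = k4
  L5 : (lbF true true T z a b c d e f (pt z (p + r5))).val = k5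
  L6 : (lbF true true T z a b c d e f (pt z (p + r6))).val = k6
  L7 : (lbF true true T z a b c d e f (pt z (p + r7))).val = k7
  no : ∀ t, 0 ≤ t → t < 6 → lbF true true T z a b c d e f (pt z (p + t)) ≠ 0 →
    t = 0 ∨ t = r1 ∨ t = r2 ∨ t = r3 ∨ t = r4 ∨ t = r5 ∨ t = r6 ∨ t = r7

theorem fl_lo {r : ℝ} {n : ℕ} (hr : 0 ≤ r) (h : n ≤ ⌊r⌋₊) : (n : ℝ) ≤ r := (Nat.le_floor_iff hr).1 h

theorem fl_hi {r : ℝ} {n : ℕ} (h : ⌊r⌋₊ ≤ n) : r < (n : ℝ) + 1 := by
  have h1 := Nat.lt_floor_add_one r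
  have h2 : ((⌊r⌋₊ : ℕ) : ℝ) ≤ (n : ℝ) := by exact_mod_cast h
  linarith

/-- the list as eight directions -/
theorem r8_815 {wds : List (List ℕ)} {l : List (ℝ × ℕ)} {k1 k2 k3 k4 k5 k6 k7 : ℕ}
    {n0 n1 n2 n3 n4 n5 n6 n7 m0 m1 m2 m3 m4 m5 m6 m7 : ℕ}
    (h : Lst true true T z a b c d e f p wds [n0, n1, n2, n3, n4, n5, n6, n7]
      [m0, m1, m2, m3, m4, m5, m6, m7] l)
    (hw : l.map Prod.snd = [6, k1, k2, k3, k4, k5, k6, k7])
    (hJ : lbF true true T z a b c d e f (pt z p) = 6) :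
    ∃ r1 r2 r3 r4 r5 r6 r7 : ℝ, R8 T z a b c d e f p r1 r2 r3 r4 r5 r6 r7 k1 k2 k3 k4 k5 k6 k7 ∧
      ((n1 : ℝ) ≤ r1 ∧ r1 < m1 + 1) ∧ ((n2 : ℝ) ≤ r2 ∧ r2 < m2 + 1) ∧
      ((n3 : ℝ) ≤ r3 ∧ r3 < m3 + 1) ∧ ((n4 : ℝ) ≤ r4 ∧ r4 < m4 + 1) ∧
      ((n5 : ℝ) ≤ r5 ∧ r5 < m5 + 1) ∧ ((n6 : ℝ) ≤ r6 ∧ r6 < m6 + 1) ∧
      ((n7 : ℝ) ≤ r7 ∧ r7 < m7 + 1) := by
  obtain ⟨h1, h2, h3, -, h5, h6⟩ := h
  obtain ⟨r0, r1, r2, r3, r4, r5, r6, r7, rfl⟩ := eight815 hw
  simp only [List.map_cons, List.map_nil, List.pairwise_cons, List.mem_cons, List.not_mem_nil,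
    or_false, forall_eq_or_imp, forall_eq, List.Pairwise.nil, and_true, IsEmpty.forall_iff,
    implies_true] at h1
  simp only [List.mem_cons, List.not_mem_nil, or_false, forall_eq_or_imp, forall_eq] at h2
  simp only [List.map_cons, List.map_nil, List.forall₂_cons, List.Forall₂.nil, and_true] at h5 h6
  obtain ⟨⟨a01, a02, a03, a04, a05, a06, a07⟩, ⟨a12, -⟩, ⟨a23, -⟩, ⟨a34, -⟩, ⟨a45, -⟩, ⟨a56, -⟩,
    a67⟩ := h1
  obtain ⟨⟨b0, -, -, -⟩, ⟨b1, -, -, c1⟩, ⟨b2, -, -, c2⟩, ⟨b3, -, -, c3⟩, ⟨b4, -, -, c4⟩,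
    ⟨b5, -, -, c5⟩, ⟨b6, -, -, c6⟩, ⟨b7, b7', -, c7⟩⟩ := h2
  obtain ⟨-, d1, d2, d3, d4, d5, d6, d7⟩ := h5
  obtain ⟨-, e1, e2, e3, e4, e5, e6, e7⟩ := h6
  have hno : ∀ t, 0 ≤ t → t < 6 → lbF true true T z a b c d e f (pt z (p + t)) ≠ 0 →
      t = r0 ∨ t = r1 ∨ t = r2 ∨ t = r3 ∨ t = r4 ∨ t = r5 ∨ t = r6 ∨ t = r7 := by
    intro t k1 k2 k3
    obtain ⟨x, hx, rfl⟩ := h3 t k1 k2 k3
    simp only [List.mem_cons, List.not_mem_nil, or_false] at hx
    rcases hx with rfl | rfl | rfl | rfl | rfl | rfl | rfl | rfl <;> simp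
  have hr0 : r0 = 0 := by
    have := hno 0 le_rfl (by norm_num) (by rw [add_zero, hJ]; decide)
    rcases this with h | h | h | h | h | h | h | h
    · exact h.symm
    all_goals linarith
  subst hr0
  exact ⟨r1, r2, r3, r4, r5, r6, r7, ⟨a01, a12, a23, a34, a45, a56, a67, b7', by rw [hJ]; rfl, c1,
    c2, c3, c4, c5, c6, c7, hno⟩, ⟨fl_lo b1 d1, fl_hi e1⟩, ⟨fl_lo b2 d2, fl_hi e2⟩,
    ⟨fl_lo b3 d3, fl_hi e3⟩, ⟨fl_lo b4 d4, fl_hi e4⟩, ⟨fl_lo b5 d5, fl_hi e5⟩,
    ⟨fl_lo b6 d6, fl_hi e6⟩, ⟨fl_lo b7 d7, fl_hi e7⟩⟩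

/-! ### The arcs -/

theorem cl_Icc815 {P : Set (Fin 6)} {x x' : ℝ} (hx : x < x')
    (h : ∀ t ∈ Ioo x x', pt z (p + t) ∈ Ex T z P) {t : ℝ} (ht : t ∈ Icc x x') :
    pt z (p + t) ∈ closure (Ex T z P) := by
  have hc : Continuous fun t => pt z (p + t) := (continuous_pt z).comp (continuous_const.add
    continuous_id)
  have h1 : t ∈ closure (Ioo x x') := by rw [closure_Ioo hx.ne]; exact ht
  exact map_mem_closure (f := fun t => pt z (p + t)) hc h1 (fun t ht => h t ht)

namespace R8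

variable {r1 r2 r3 r4 r5 r6 r7 : ℝ} {k1 k2 k3 k4 k5 k6 k7 : ℕ}

theorem mid815 (R : R8 T z a b c d e f p r1 r2 r3 r4 r5 r6 r7 k1 k2 k3 k4 k5 k6 k7)
    (S : CzF true true U T z a b c d e f) {x x' : ℝ} {n : ℕ} (hx0 : 0 ≤ x) (hx : x < x')
    (hx6 : x' ≤ 6)
    (hn : ∀ t, x < t → t < x' → t ≠ 0 ∧ t ≠ r1 ∧ t ≠ r2 ∧ t ≠ r3 ∧ t ≠ r4 ∧ t ≠ r5 ∧ t ≠ r6 ∧
      t ≠ r7)
    (hl : aft (lbF true true T z a b c d e f (pt z (p + x))) = n ∧
      lbF true true T z a b c d e f (pt z (p + x)) ≠ 0) :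
    ∀ t ∈ Ioo x x', Stt T z a b c d n (pt z (p + t)) := by
  intro t ht
  have h := S.mid (t1 := p + x) (t2 := p + x') (by linarith) ?_ hl.2 (p + t)
    ⟨by linarith [ht.1], by linarith [ht.2]⟩
  · rw [hl.1] at h
    exact h
  · intro v hv
    by_contra hne
    have hv1 : x < v - p := by linarith [hv.1]
    have hv2 : v - p < x' := by linarith [hv.2]
    have := R.no (v - p) (by linarith) (by linarith) (by rwa [show p + (v - p) = v by ring])
    have h9 := hn (v - p) hv1 hv2
    tauto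

end R8

/-- a circle of type 1 -/
structure R1 (T : ℂ → Set (Fin 6)) (z : ℂ) (a b c d e f : Fin 6)
    (p x0 x0' x1 x1' x2 j x2' : ℝ) (s0 t0 s1 t1 s2 t2 : Bool) : Prop where
  o0 : -1 ≤ x0
  o1 : x0 < 0
  o2 : 0 < x0'
  o3 : x0' < 2
  o4 : x0' < x1
  o5 : 1 ≤ x1
  o6 : x1 < x1'
  o7 : x1' < 3
  o8 : 3 ≤ x2
  o9 : x2 < j
  oa : j < x2'
  ob : x2' < 5
  J : T (pt z p) = T z
  J' : T (pt z (p + j)) = T z
  p0 : T (pt z (p + x0)) = {c, d, cond s0 e f}
  p0' : T (pt z (p + x0')) = {a, b, cond t0 e f}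
  p1 : T (pt z (p + x1)) = {c, d, cond s1 e f}
  p1' : T (pt z (p + x1')) = {c, d, cond t1 e f}
  p2 : T (pt z (p + x2)) = {a, b, cond s2 e f}
  p2' : T (pt z (p + x2')) = {c, d, cond t2 e f}
  m0 : ∀ t ∈ Ioo x0 0, pt z (p + t) ∈ Ex T z {c, d}
  m0' : ∀ t ∈ Ioo 0 x0', pt z (p + t) ∈ Ex T z {a, b}
  m1 : ∀ t ∈ Ioo x1 x1', pt z (p + t) ∈ Ex T z {c, d}
  m2 : ∀ t ∈ Ioo x2 j, pt z (p + t) ∈ Ex T z {a, b}
  m2' : ∀ t ∈ Ioo j x2', pt z (p + t) ∈ Ex T z {c, d}
  g0 : ∀ t ∈ Ioo x0' x1, pt z (p + t) ∉ closure (Ex T z {a, b}) ∧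
    pt z (p + t) ∉ closure (Ex T z {c, d})
  g1 : ∀ t ∈ Ioo x1' x2, pt z (p + t) ∉ closure (Ex T z {a, b}) ∧
    pt z (p + t) ∉ closure (Ex T z {c, d})
  g2 : ∀ t ∈ Ioo x2' (x0 + 6), pt z (p + t) ∉ closure (Ex T z {a, b}) ∧
    pt z (p + t) ∉ closure (Ex T z {c, d})
  w : W1 s0 t0 s1 t1 s2 t2

/-- a circle of type 2 -/
structure R2 (T : ℂ → Set (Fin 6)) (z : ℂ) (a b c d e f : Fin 6)
    (p x0 x0' x1 j x1' x2 x2' : ℝ) (s0 t0 s1 t1 s2 t2 : Bool) : Prop where
  o0 : -1 ≤ x0
  o1 : x0 < 0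
  o2 : 0 < x0'
  o3 : x0' < 2
  o4 : x0' < x1
  o5 : 1 ≤ x1
  o6 : x1 < j
  o6' : j < x1'
  o7 : x1' < 3
  o8 : 3 ≤ x2
  o9 : x2 < x2'
  oa : x2 < 5
  ob : x2' < x0 + 6
  J : T (pt z p) = T z
  J' : T (pt z (p + j)) = T z
  p0 : T (pt z (p + x0)) = {c, d, cond s0 e f}
  p0' : T (pt z (p + x0')) = {a, b, cond t0 e f}
  p1 : T (pt z (p + x1)) = {a, b, cond s1 e f}
  p1' : T (pt z (p + x1')) = {c, d, cond t1 e f}
  p2 : T (pt z (p + x2)) = {a, b, cond s2 e f}
  p2' : T (pt z (p + x2')) = {a, b, cond t2 e f}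
  m0 : ∀ t ∈ Ioo x0 0, pt z (p + t) ∈ Ex T z {c, d}
  m0' : ∀ t ∈ Ioo 0 x0', pt z (p + t) ∈ Ex T z {a, b}
  m1 : ∀ t ∈ Ioo x1 j, pt z (p + t) ∈ Ex T z {a, b}
  m1' : ∀ t ∈ Ioo j x1', pt z (p + t) ∈ Ex T z {c, d}
  m2 : ∀ t ∈ Ioo x2 x2', pt z (p + t) ∈ Ex T z {a, b}
  g0 : ∀ t ∈ Ioo x0' x1, pt z (p + t) ∉ closure (Ex T z {a, b}) ∧
    pt z (p + t) ∉ closure (Ex T z {c, d})
  g1 : ∀ t ∈ Ioo x1' x2, pt z (p + t) ∉ closure (Ex T z {a, b}) ∧
    pt z (p + t) ∉ closure (Ex T z {c, d})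
  g2 : ∀ t ∈ Ioo x2' (x0 + 6), pt z (p + t) ∉ closure (Ex T z {a, b}) ∧
    pt z (p + t) ∉ closure (Ex T z {c, d})
  w : W2 s0 t0 s1 t1 s2 t2

/-- **type 1 from `list2`** -/
theorem r1_815 (S : CzF true true U T z a b c d e f) (Z : Zn T z a b c d p q)
    (hfin : {y | dist y z = 1 ∧ lbF true true T z a b c d e f y ≠ 0}.Finite)
    (C : Cnt T z a b c d e f 1 1 2 2 2) (hJ : lbF true true T z a b c d e f (pt z p) = 6) :
    ∃ x0 x0' x1 x1' x2 j x2' s0 t0 s1 t1 s2 t2,
      R1 T z a b c d e f p x0 x0' x1 x1' x2 j x2' s0 t0 s1 t1 s2 t2 := by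
  obtain ⟨l, hl⟩ := list2 S Z hfin C hJ
  obtain ⟨s0, t0, s1, t1, s2, t2, hW, hw⟩ := w1_815 _ hl.2.2.2.1
  obtain ⟨r1, r2, r3, r4, r5, r6, r7, R, ⟨-, i1'⟩, ⟨i2, i2'⟩, ⟨i3, i3'⟩, ⟨i4, i4'⟩, ⟨i5, i5'⟩,
    ⟨i6, i6'⟩, ⟨i7, i7'⟩⟩ := r8_815 hl hw hJ
  push_cast at i1' i2 i2' i3 i3' i4 i4' i5 i5' i6 i6' i7 i7'
  have h1 := R.h1; have h2 := R.h2; have h3 := R.h3; have h4 := R.h4; have h5 := R.h5
  have h6 := R.h6; have h7 := R.h7; have h8 := R.h8
  have six : ∀ t, pt z (p + (t - 6)) = pt z (p + t) := fun t => by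
    rw [← pt_six z (p + (t - 6))]; congr 1; ring
  have nn : ∀ {x x' t : ℝ}, x < t → t < x' → (0 ≤ x) →
      (r1 ≤ x ∨ x' ≤ r1) → (r2 ≤ x ∨ x' ≤ r2) → (r3 ≤ x ∨ x' ≤ r3) → (r4 ≤ x ∨ x' ≤ r4) →
      (r5 ≤ x ∨ x' ≤ r5) → (r6 ≤ x ∨ x' ≤ r6) → (r7 ≤ x ∨ x' ≤ r7) →
      t ≠ 0 ∧ t ≠ r1 ∧ t ≠ r2 ∧ t ≠ r3 ∧ t ≠ r4 ∧ t ≠ r5 ∧ t ≠ r6 ∧ t ≠ r7 := by
    intro x x' t k k' k0 e1 e2 e3 e4 e5 e6 e7
    refine ⟨?_, ?_, ?_, ?_, ?_, ?_, ?_, ?_⟩
    · intro h; linarith
    · intro h; rcases e1 with e1 | e1 <;> linarith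
    · intro h; rcases e2 with e1 | e1 <;> linarith
    · intro h; rcases e3 with e1 | e1 <;> linarith
    · intro h; rcases e4 with e1 | e1 <;> linarith
    · intro h; rcases e5 with e1 | e1 <;> linarith
    · intro h; rcases e6 with e1 | e1 <;> linarith
    · intro h; rcases e7 with e1 | e1 <;> linarith
  refine ⟨r7 - 6, r1, r2, r3, r4, r5, r6, s0, t0, s1, t1, s2, t2, ?_⟩
  exact
    { o0 := by linarith
      o1 := by linarith
      o2 := h1
      o3 := by linarith
      o4 := h2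
      o5 := by linarith
      o6 := h3
      o7 := by linarith
      o8 := by linarith
      o9 := h5
      oa := h6
      ob := by linarith
      J := pJ (Or.inr rfl) R.L0
      J' := pJ (Or.inl rfl) R.L5
      p0 := by rw [six]; exact pC R.L7
      p0' := pA' R.L1
      p1 := pC R.L2
      p1' := pC' R.L3
      p2 := pA R.L4
      p2' := pC' R.L6
      m0 := fun t ht => by
        have h := R.mid815 S (x := r7) (x' := 6) (n := 2) (by linarith) h8 le_rfl
          (fun t k1 k2 => nn k1 k2 (by linarith) (by left; linarith) (by left; linarith)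
            (by left; linarith) (by left; linarith) (by left; linarith) (by left; linarith)
            (by left; linarith)) (fC R.L7) (t + 6) ⟨by linarith [ht.1], by linarith [ht.2]⟩
        have e : pt z (p + (t + 6)) = pt z (p + t) := by
          rw [← six (t + 6)]; congr 2; ring
        rw [← e]; exact h
      m0' := fun t ht => R.mid815 S (x := 0) (x' := r1) (n := 1) le_rfl h1 (by linarith)
          (fun t k1 k2 => nn k1 k2 le_rfl (by right; linarith) (by right; linarith)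
            (by right; linarith) (by right; linarith) (by right; linarith) (by right; linarith)
            (by right; linarith))
          (by rw [add_zero, hJ]; exact ⟨rfl, by decide⟩) t ht
      m1 := fun t ht => R.mid815 S (x := r2) (x' := r3) (n := 2) (by linarith) h3 (by linarith)
          (fun t k1 k2 => nn k1 k2 (by linarith) (by left; linarith) (by left; linarith)
            (by right; linarith) (by right; linarith) (by right; linarith) (by right; linarith)
            (by right; linarith)) (fC R.L2) t ht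
      m2 := fun t ht => R.mid815 S (x := r4) (x' := r5) (n := 1) (by linarith) h5 (by linarith)
          (fun t k1 k2 => nn k1 k2 (by linarith) (by left; linarith) (by left; linarith)
            (by left; linarith) (by left; linarith) (by right; linarith) (by right; linarith)
            (by right; linarith)) (fA R.L4) t ht
      m2' := fun t ht => R.mid815 S (x := r5) (x' := r6) (n := 2) (by linarith) h6 (by linarith)
          (fun t k1 k2 => nn k1 k2 (by linarith) (by left; linarith) (by left; linarith)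
            (by left; linarith) (by left; linarith) (by left; linarith) (by right; linarith)
            (by right; linarith)) (by
              have h9 : lbF true true T z a b c d e f (pt z (p + r5)) = 5 := Fin.ext R.L5
              rw [h9]; exact ⟨rfl, by decide⟩) t ht
      g0 := fun t ht => R.mid815 S (x := r1) (x' := r2) (n := 0) (by linarith) h2 (by linarith)
          (fun t k1 k2 => nn k1 k2 (by linarith) (by left; linarith) (by right; linarith)
            (by right; linarith) (by right; linarith) (by right; linarith) (by right; linarith)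
            (by right; linarith)) (fA' R.L1) t ht
      g1 := fun t ht => R.mid815 S (x := r3) (x' := r4) (n := 0) (by linarith) h4 (by linarith)
          (fun t k1 k2 => nn k1 k2 (by linarith) (by left; linarith) (by left; linarith)
            (by left; linarith) (by right; linarith) (by right; linarith) (by right; linarith)
            (by right; linarith)) (fC' R.L3) t ht
      g2 := fun t ht => R.mid815 S (x := r6) (x' := r7) (n := 0) (by linarith) h7 (by linarith)
          (fun t k1 k2 => nn k1 k2 (by linarith) (by left; linarith) (by left; linarith)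
            (by left; linarith) (by left; linarith) (by left; linarith) (by left; linarith)
            (by right; linarith)) (fC' R.L6) t ⟨ht.1, by linarith [ht.2]⟩
      w := hW }

/-- **type 2 from `list3`** -/
theorem r2_815 (S : CzF true true U T z a b c d e f) (Z : Zn T z a b c d p q)
    (hfin : {y | dist y z = 1 ∧ lbF true true T z a b c d e f y ≠ 0}.Finite)
    (C : Cnt T z a b c d e f 2 2 1 1 2) (hJ : lbF true true T z a b c d e f (pt z p) = 6) :
    ∃ x0 x0' x1 j x1' x2 x2' s0 t0 s1 t1 s2 t2,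
      R2 T z a b c d e f p x0 x0' x1 j x1' x2 x2' s0 t0 s1 t1 s2 t2 := by
  obtain ⟨l, hl⟩ := list3 S Z hfin C hJ
  obtain ⟨s0, t0, s1, t1, s2, t2, hW, hw⟩ := w2_815 _ hl.2.2.2.1
  obtain ⟨r1, r2, r3, r4, r5, r6, r7, R, ⟨-, i1'⟩, ⟨i2, i2'⟩, ⟨i3, i3'⟩, ⟨i4, i4'⟩, ⟨i5, i5'⟩,
    ⟨i6, i6'⟩, ⟨i7, i7'⟩⟩ := r8_815 hl hw hJ
  push_cast at i1' i2 i2' i3 i3' i4 i4' i5 i5' i6 i6' i7 i7'
  have h1 := R.h1; have h2 := R.h2; have h3 := R.h3; have h4 := R.h4; have h5 := R.h5
  have h6 := R.h6; have h7 := R.h7; have h8 := R.h8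
  have six : ∀ t, pt z (p + (t - 6)) = pt z (p + t) := fun t => by
    rw [← pt_six z (p + (t - 6))]; congr 1; ring
  have nn : ∀ {x x' t : ℝ}, x < t → t < x' → (0 ≤ x) →
      (r1 ≤ x ∨ x' ≤ r1) → (r2 ≤ x ∨ x' ≤ r2) → (r3 ≤ x ∨ x' ≤ r3) → (r4 ≤ x ∨ x' ≤ r4) →
      (r5 ≤ x ∨ x' ≤ r5) → (r6 ≤ x ∨ x' ≤ r6) → (r7 ≤ x ∨ x' ≤ r7) →
      t ≠ 0 ∧ t ≠ r1 ∧ t ≠ r2 ∧ t ≠ r3 ∧ t ≠ r4 ∧ t ≠ r5 ∧ t ≠ r6 ∧ t ≠ r7 := by
    intro x x' t k k' k0 e1 e2 e3 e4 e5 e6 e7
    refine ⟨?_, ?_, ?_, ?_, ?_, ?_, ?_, ?_⟩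
    · intro h; linarith
    · intro h; rcases e1 with e1 | e1 <;> linarith
    · intro h; rcases e2 with e1 | e1 <;> linarith
    · intro h; rcases e3 with e1 | e1 <;> linarith
    · intro h; rcases e4 with e1 | e1 <;> linarith
    · intro h; rcases e5 with e1 | e1 <;> linarith
    · intro h; rcases e6 with e1 | e1 <;> linarith
    · intro h; rcases e7 with e1 | e1 <;> linarith
  refine ⟨r7 - 6, r1, r2, r3, r4, r5, r6, s0, t0, s1, t1, s2, t2, ?_⟩
  exact
    { o0 := by linarith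
      o1 := by linarith
      o2 := h1
      o3 := by linarith
      o4 := h2
      o5 := by linarith
      o6 := h3
      o6' := h4
      o7 := by linarith
      o8 := by linarith
      o9 := h6
      oa := by linarith
      ob := by linarith
      J := pJ (Or.inr rfl) R.L0
      J' := pJ (Or.inl rfl) R.L3
      p0 := by rw [six]; exact pC R.L7
      p0' := pA' R.L1
      p1 := pA R.L2
      p1' := pC' R.L4
      p2 := pA R.L5
      p2' := pA' R.L6
      m0 := fun t ht => by
        have h := R.mid815 S (x := r7) (x' := 6) (n := 2) (by linarith) h8 le_rfl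
          (fun t k1 k2 => nn k1 k2 (by linarith) (by left; linarith) (by left; linarith)
            (by left; linarith) (by left; linarith) (by left; linarith) (by left; linarith)
            (by left; linarith)) (fC R.L7) (t + 6) ⟨by linarith [ht.1], by linarith [ht.2]⟩
        have e : pt z (p + (t + 6)) = pt z (p + t) := by
          rw [← six (t + 6)]; congr 2; ring
        rw [← e]; exact h
      m0' := fun t ht => R.mid815 S (x := 0) (x' := r1) (n := 1) le_rfl h1 (by linarith)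
          (fun t k1 k2 => nn k1 k2 le_rfl (by right; linarith) (by right; linarith)
            (by right; linarith) (by right; linarith) (by right; linarith) (by right; linarith)
            (by right; linarith))
          (by rw [add_zero, hJ]; exact ⟨rfl, by decide⟩) t ht
      m1 := fun t ht => R.mid815 S (x := r2) (x' := r3) (n := 1) (by linarith) h3 (by linarith)
          (fun t k1 k2 => nn k1 k2 (by linarith) (by left; linarith) (by left; linarith)
            (by right; linarith) (by right; linarith) (by right; linarith) (by right; linarith)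
            (by right; linarith)) (fA R.L2) t ht
      m1' := fun t ht => R.mid815 S (x := r3) (x' := r4) (n := 2) (by linarith) h4 (by linarith)
          (fun t k1 k2 => nn k1 k2 (by linarith) (by left; linarith) (by left; linarith)
            (by left; linarith) (by right; linarith) (by right; linarith) (by right; linarith)
            (by right; linarith)) (by
              have h9 : lbF true true T z a b c d e f (pt z (p + r3)) = 5 := Fin.ext R.L3
              rw [h9]; exact ⟨rfl, by decide⟩) t ht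
      m2 := fun t ht => R.mid815 S (x := r5) (x' := r6) (n := 1) (by linarith) h6 (by linarith)
          (fun t k1 k2 => nn k1 k2 (by linarith) (by left; linarith) (by left; linarith)
            (by left; linarith) (by left; linarith) (by left; linarith) (by right; linarith)
            (by right; linarith)) (fA R.L5) t ht
      g0 := fun t ht => R.mid815 S (x := r1) (x' := r2) (n := 0) (by linarith) h2 (by linarith)
          (fun t k1 k2 => nn k1 k2 (by linarith) (by left; linarith) (by right; linarith)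
            (by right; linarith) (by right; linarith) (by right; linarith) (by right; linarith)
            (by right; linarith)) (fA' R.L1) t ht
      g1 := fun t ht => R.mid815 S (x := r4) (x' := r5) (n := 0) (by linarith) h5 (by linarith)
          (fun t k1 k2 => nn k1 k2 (by linarith) (by left; linarith) (by left; linarith)
            (by left; linarith) (by left; linarith) (by right; linarith) (by right; linarith)
            (by right; linarith)) (fC' R.L4) t ht
      g2 := fun t ht => R.mid815 S (x := r6) (x' := r7) (n := 0) (by linarith) h7 (by linarith)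
          (fun t k1 k2 => nn k1 k2 (by linarith) (by left; linarith) (by left; linarith)
            (by left; linarith) (by left; linarith) (by left; linarith) (by left; linarith)
            (by right; linarith)) (fA' R.L6) t ⟨ht.1, by linarith [ht.2]⟩
      w := hW }

end Vale.Agent.P032.H815
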