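import Vale.Agent.P032.H815.JLst
import Vale.Agent.P032.H594.JSg

/-!
# P032: the facts of a comp centre with two `J`s (structures) (helper815)

`Pre1`, `Pre2` : the types of circles `R1`, `R2` with the blocks, the ends and the positions.
-/

open Set Filter Topology Metric

noncomputable section

namespace Vale.Agent.P032.H815

open Vale.Agent.P032.Six Vale.Agent.P032.S5.H767 Vale.Agent.P032.S5.H349
  Vale.Agent.P032.S5.H450
open Vale.Agent.P032.H594 (Ad Blk)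

/-- type 1 with all facts -/
structure Pre1 (T : ℂ → Set (Fin 6)) (z : ℂ) (a b c d e f : Fin 6)
    (φ x0 x0' x1 x1' x2 j x2' : ℝ) (s0 t0 s1 t1 s2 t2 : Bool) : Prop extends
    R1 T z a b c d e f φ x0 x0' x1 x1' x2 j x2' s0 t0 s1 t1 s2 t2 where
  ee0 : EE T z (pt z (φ + x0))
  ee0' : EE T z (pt z (φ + x0'))
  ee1 : EE T z (pt z (φ + x1))
  ee1' : EE T z (pt z (φ + x1'))
  ee2 : EE T z (pt z (φ + x2))
  ee2' : EE T z (pt z (φ + x2'))
  blk : Blk (Ad T z {a, b} {c, d}) φ (φ + x0) (φ + x0') (φ + x1) (φ + x1') (φ + x2) (φ + x2')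
  g : G1 (φ + x0) (φ + x0') (φ + x1) (φ + x1') (φ + x2) (φ + x2') (s2 = t2)
  gap : x2' + 1 ≤ x0 + 6
  j0 : x2' - j < 1
  j0' : j - x2 < 1
  j1 : x1' + 1 ≤ j
  j3 : j < x1 + 3
  j4 : x0' + 3 < j

/-- type 2 with all facts -/
structure Pre2 (T : ℂ → Set (Fin 6)) (z : ℂ) (a b c d e f : Fin 6)
    (φ x0 x0' x1 j x1' x2 x2' : ℝ) (s0 t0 s1 t1 s2 t2 : Bool) : Prop extends
    R2 T z a b c d e f φ x0 x0' x1 j x1' x2 x2' s0 t0 s1 t1 s2 t2 where
  ee0 : EE T z (pt z (φ + x0))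
  ee0' : EE T z (pt z (φ + x0'))
  ee1 : EE T z (pt z (φ + x1))
  ee1' : EE T z (pt z (φ + x1'))
  ee2 : EE T z (pt z (φ + x2))
  ee2' : EE T z (pt z (φ + x2'))
  blk : Blk (Ad T z {a, b} {c, d}) φ (φ + x0) (φ + x0') (φ + x1) (φ + x1') (φ + x2) (φ + x2')
  g : G2 (φ + x0) (φ + x0') (φ + x1) (φ + x1') (φ + x2) (φ + x2') (s1 = t1)

end Vale.Agent.P032.H815
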