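import Vale.Agent.P032.H815.JTie
import Vale.Agent.P032.H815.JPre0

/-!
# P032: all position facts of a comp centre with two `J`s (helper815)

* `second815` : the second `J` as a base (names `c d a b f e`);
* `preI_815`, `preII_815`, `pre_815` : `Pre1`, `Pre2` from the word tables;
* `pre1_815` : one of the two `J`s is the base of a circle of type 1.
-/

open Set Filter Topology Metric

noncomputable section

namespace Vale.Agent.P032.H815

open Vale.Agent.P032.Six Vale.Agent.P032.S5.H767 Vale.Agent.P032.S5.H349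
  Vale.Agent.P032.S5.H450
open Vale.Agent.P032.H987 hiding lb
open Vale.Agent.P032.H546 (Lst wds2 wds3 Cnt list2 list3)
open Vale.Agent.P032.H594 (JPair Ad Blk)
open Vale.Agent.P032.H471 (Sec4)
open Vale.Agent.P032.H838 (pt_ne838)

variable {U : Fin 6 → Set ℂ} {T : ℂ → Set (Fin 6)} {z y : ℂ} {a b c d e f : Fin 6} {p q φ : ℝ}

/-! ### Names -/

theorem jp_sw815 (S : JP U T z y a b c d e f) : JP U T z y c d a b f e := by
  rcases S with S | S
  · left
    refine ⟨S.irr, S.hz.swap, S.hy.swap12.swap34, ?_, S.dyz, S.wz, S.wy⟩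
    have h := S.nd
    simp only [List.nodup_cons, List.mem_cons, List.not_mem_nil, or_false, not_or, List.nodup_nil,
      and_true, not_false_eq_true] at h ⊢
    obtain ⟨⟨ab, ac, ad, ae, af⟩, ⟨bc, bd, be, bf⟩, ⟨cd, ce, cf⟩, ⟨de, df⟩, ef⟩ := h
    exact ⟨⟨cd, Ne.symm ac, Ne.symm bc, cf, ce⟩, ⟨Ne.symm ad, Ne.symm bd, df, de⟩, ⟨ab, af, ae⟩,
      ⟨bf, be⟩, Ne.symm ef⟩
  · right
    refine ⟨S.irr, S.hz.swap.swap12.swap34, S.hy.swap.swap12.swap34, ?_, S.dyz, S.wz, S.wy⟩
    have h := S.nd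
    simp only [List.nodup_cons, List.mem_cons, List.not_mem_nil, or_false, not_or, List.nodup_nil,
      and_true, not_false_eq_true] at h ⊢
    obtain ⟨⟨ab, ad, ac, ae, af⟩, ⟨bd, bc, be, bf⟩, ⟨dc, de, df⟩, ⟨ce, cf⟩, ef⟩ := h
    exact ⟨⟨Ne.symm dc, Ne.symm bc, Ne.symm ac, cf, ce⟩, ⟨Ne.symm bd, Ne.symm ad, df, de⟩,
      ⟨Ne.symm ab, bf, be⟩, ⟨af, ae⟩, Ne.symm ef⟩

theorem zn_sw815 (Z : Zn T z a b c d p q) : Zn T z c d a b q (p + 3) where
  lt := Z.lt'
  lt' := by have := Z.lt; linarith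
  zA := fun u hu => Z.zC u hu
  zC := fun u hu => by
    obtain ⟨n, h1, h2⟩ := Z.zA u hu
    exact ⟨n + 1, by push_cast; linarith, by push_cast; linarith⟩

theorem zn_sh815 (Z : Zn T z a b c d p q) (k : ℤ) :
    Zn T z a b c d (p + 3 * (k : ℝ)) (q + 3 * (k : ℝ)) where
  lt := by have := Z.lt; linarith
  lt' := by have := Z.lt'; linarith
  zA := fun u hu => by
    obtain ⟨n, h1, h2⟩ := Z.zA u hu
    exact ⟨n + k, by push_cast; linarith, by push_cast; linarith⟩
  zC := fun u hu => by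
    obtain ⟨n, h1, h2⟩ := Z.zC u hu
    exact ⟨n + k, by push_cast; linarith, by push_cast; linarith⟩

theorem ex_disj815 (S : CzF true true U T z a b c d e f) {x : ℂ} (h1 : x ∈ Ex T z {a, b})
    (h2 : x ∈ Ex T z {c, d}) : False := by
  have h5 : a ∈ ({c, d} : Set (Fin 6)) := by rw [← ex_self h2, ex_self h1]; simp
  rcases h5 with h6 | h6
  · exact S.dpt.ac h6
  · exact S.dpt.ad h6

/-- **the second `J` as a base** -/
theorem second815 (S : CzF true true U T z a b c d e f) (Z : Zn T z a b c d φ q)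
    (hP : JP U T z y a b c d e f) (hφ : pt z φ = y) {j α β : ℝ}
    (hJ : T (pt z (φ + j)) = T z) (hj : 0 < j) (hj6 : j < 6) (hα : α < j)
    (mA : ∀ t ∈ Ioo α j, pt z (φ + t) ∈ Ex T z {a, b}) (hβ : j < β)
    (mC : ∀ t ∈ Ioo j β, pt z (φ + t) ∈ Ex T z {c, d}) :
    lbF true true T z c d a b f e (pt z (φ + j)) = 6 ∧
      ∃ n : ℤ, j + 3 * (n : ℝ) = q - φ ∧ Zn T z c d a b (φ + j) (φ + 3 - 3 * (n : ℝ)) := by
  have hcA : pt z (φ + j) ∈ closure (Ex T z {a, b}) := cl_Icc815 hα mA ⟨hα.le, le_rfl⟩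
  have hcC : pt z (φ + j) ∈ closure (Ex T z {c, d}) := cl_Icc815 hβ mC ⟨le_rfl, hβ.le⟩
  constructor
  · have h56 : lbF true true T z c d a b f e (pt z (φ + j)) = 5 ∨
        lbF true true T z c d a b f e (pt z (φ + j)) = 6 := by
      unfold lbF
      rw [if_pos hJ]
      split_ifs
      · exact Or.inl rfl
      · exact Or.inr rfl
    rcases h56 with h5 | h5
    swap
    · exact h5
    exfalso
    obtain ⟨γ, hγ, h6⟩ := ((czf_sw815 S).sides (φ + j)).2
    rw [h5] at h6
    obtain ⟨v, hv1, hv2⟩ := exists_between (max_lt hγ (show φ + α < φ + j by linarith))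
    have k1 := h6 v ⟨lt_of_le_of_lt (le_max_left _ _) hv1, hv2⟩
    have k2 := mA (v - φ) ⟨by have := lt_of_le_of_lt (le_max_right _ _) hv1; linarith, by linarith⟩
    rw [show φ + (v - φ) = v by ring] at k2
    exact ex_disj815 S k2 k1
  · obtain ⟨n, h1, h2⟩ := Z.zA _ hcA
    obtain ⟨m, h3, h4⟩ := Z.zC _ hcC
    have hl := Z.lt
    have hl' := Z.lt'
    have hmn : m = n := by
      by_contra hne
      have h5 : m ≤ n + 1 := by
        by_contra h6
        push Not at h6
        have h7 : (n : ℝ) + 2 ≤ (m : ℝ) := by exact_mod_cast (by omega : n + 2 ≤ m)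
        linarith
      have h6 : n ≤ m := by
        by_contra h6
        push Not at h6
        have h7 : (m : ℝ) + 1 ≤ (n : ℝ) := by exact_mod_cast h6
        linarith
      have h7 : m = n + 1 := by omega
      have h8 : (m : ℝ) = (n : ℝ) + 1 := by exact_mod_cast h7
      have h9 : j + 3 * (n : ℝ) = 0 := by rw [h8] at h4; linarith
      have h10 : n = -1 := by
        have k1 : (n : ℝ) < 0 := by linarith
        have k2 : (-2 : ℝ) < n := by linarith
        have k3 : n < 0 := by exact_mod_cast k1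
        have k4 : -2 < n := by exact_mod_cast k2
        omega
      rw [h10] at h9
      push_cast at h9
      have h11 : j = 3 := by linarith
      rw [h11] at hcA
      exact (jp_anti hP hφ).1 hcA
    subst hmn
    refine ⟨m, by linarith, ?_⟩
    have hZ := zn_sh815 (zn_sw815 Z) (-m)
    have e1 : q + 3 * (((-m : ℤ)) : ℝ) = φ + j := by push_cast; linarith
    have e2 : φ + 3 + 3 * (((-m : ℤ)) : ℝ) = φ + 3 - 3 * (m : ℝ) := by push_cast; ring
    rw [e1, e2] at hZ
    exact hZ

/-! ### Two equal pairs at distance one -/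

theorem card3_815 (g : Fin 6) : ({a, b, g} : Set (Fin 6)).ncard ≤ 3 := by
  refine (Set.ncard_insert_le _ _).trans ?_
  have := Set.ncard_insert_le b ({g} : Set (Fin 6))
  rw [Set.ncard_singleton] at this
  omega

/-- two ends of the same pair at distance one: the free colour of the first is not at distance one
on the other side -/
theorem strict815 (h : Irr U T) {u : ℝ} {g g' : Fin 6} (h1 : T (pt z (φ + (u + 1))) = {a, b, g})
    (h2 : T (pt z (φ + (u + 2))) = {a, b, g'}) (h0 : g ∈ T (pt z (φ + u))) : False := by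
  have e1 := dist_pt_one z (φ + u)
  have e2 := dist_pt_one z (φ + (u + 1))
  rw [show φ + u + 1 = φ + (u + 1) by ring] at e1
  rw [show φ + (u + 1) + 1 = φ + (u + 2) by ring] at e2
  refine h.third_notMem (z := pt z (φ + (u + 1))) (v := pt z (φ + (u + 2)))
    (q := pt z (φ + u)) (d := g) (by rw [dist_comm]; exact e2) (by rw [h2]; exact card3_815 g')
    ?_ e1 (h.sub _ h0) (pt_ne838 (by intro k; linarith) (by rw [abs_lt]; constructor <;> linarith))
    ?_
  · rw [h1, h2]
    rintro i (rfl | rfl | rfl) <;> simp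
  · intro k
    have h3 := pt_sum z (φ + u)
    rw [show φ + u + 2 = φ + (u + 2) by ring, show φ + u + 1 = φ + (u + 1) by ring] at h3
    have h4 : pt z (φ + (u + 1)) = z := by linear_combination h3 - k
    have h5 := dist_pt z (φ + (u + 1))
    rw [h4, dist_self] at h5
    exact zero_ne_one h5

theorem strict815' (h : Irr U T) {u : ℝ} {g g' : Fin 6} (h1 : T (pt z (φ + (u + 1))) = {a, b, g})
    (h2 : T (pt z (φ + u)) = {a, b, g'}) (h0 : g ∈ T (pt z (φ + (u + 2)))) : False := by
  have e1 := dist_pt_one z (φ + u)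
  have e2 := dist_pt_one z (φ + (u + 1))
  rw [show φ + u + 1 = φ + (u + 1) by ring] at e1
  rw [show φ + (u + 1) + 1 = φ + (u + 2) by ring] at e2
  refine h.third_notMem (z := pt z (φ + (u + 1))) (v := pt z (φ + u))
    (q := pt z (φ + (u + 2))) (d := g) e1 (by rw [h2]; exact card3_815 g')
    ?_ (by rw [dist_comm]; exact e2) (h.sub _ h0)
    (pt_ne838 (by intro k; linarith) (by rw [abs_lt]; constructor <;> linarith)) ?_
  · rw [h1, h2]
    rintro i (rfl | rfl | rfl) <;> simp
  · intro k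
    have h3 := pt_sum z (φ + u)
    rw [show φ + u + 2 = φ + (u + 2) by ring, show φ + u + 1 = φ + (u + 1) by ring] at h3
    have h4 : pt z (φ + (u + 1)) = z := by linear_combination h3 - k
    have h5 := dist_pt z (φ + (u + 1))
    rw [h4, dist_self] at h5
    exact zero_ne_one h5

variable {x0 x0' x1 x1' x2 x2' j : ℝ} {s0 t0 s1 t1 s2 t2 : Bool}

/-! ### Type 1 -/

namespace R1

theorem len (R : R1 T z a b c d e f φ x0 x0' x1 x1' x2 j x2' s0 t0 s1 t1 s2 t2)
    (C : CzF true true U T z a b c d e f) : x1' - x1 ≤ 1 := by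
  by_contra h
  push Not at h
  obtain ⟨u, h1, h2⟩ := exists_between (show x1 < x1' - 1 by linarith)
  exact one815 C.irr (Set.ncard_pair C.dpt.cd) (R.m1 u ⟨h1, by linarith⟩)
    (R.m1 (u + 1) ⟨by linarith, by linarith⟩) rfl

theorem gap (R : R1 T z a b c d e f φ x0 x0' x1 x1' x2 j x2' s0 t0 s1 t1 s2 t2)
    (C : CzF true true U T z a b c d e f) : x2' + 1 ≤ x0 + 6 := by
  have o1 := R.o1; have oa := R.oa; have ob := R.ob
  by_contra h
  push Not at h
  obtain ⟨v, h1, h2⟩ := exists_between (show max (x0 + 6) (j + 1) < min (x2' + 1) 6 from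
    max_lt (lt_min h (by linarith)) (lt_min (by linarith) (by linarith)))
  have k1 := lt_of_le_of_lt (le_max_left _ _) h1
  have k2 := lt_of_le_of_lt (le_max_right _ _) h1
  have k3 := lt_of_lt_of_le h2 (min_le_left _ _)
  have k4 := lt_of_lt_of_le h2 (min_le_right _ _)
  refine one815 C.irr (Set.ncard_pair C.dpt.cd) (u := v - 1) (v := v) (z := z) (φ := φ)
    (R.m2' (v - 1) ⟨by linarith, by linarith⟩) ?_ (by ring)
  rw [show v = (v - 6) + 6 by ring, pt_six']
  exact R.m0 (v - 6) ⟨by linarith, by linarith⟩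

theorem gap' (R : R1 T z a b c d e f φ x0 x0' x1 x1' x2 j x2' s0 t0 s1 t1 s2 t2)
    (C : CzF true true U T z a b c d e f) (hs : s2 = t2) (h : x2' = x2 + 1) :
    x2' + 1 < x0 + 6 := by
  refine lt_of_le_of_ne (R.gap C) fun k => ?_
  have e1 := R.p2'
  have e2 := R.p0
  rw [← pt_six' z φ x0, ← k, h, show x2 + 1 + 1 = x2 + 2 by ring] at e2
  rw [h, ← hs] at e1
  refine strict815 C.irr (u := x2) e1 e2 ?_
  rw [R.p2]; simp

/-- **the facts at the second `J`, type 1** -/
theorem snd (R : R1 T z a b c d e f φ x0 x0' x1 x1' x2 j x2' s0 t0 s1 t1 s2 t2)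
    (C : CzF true true U T z a b c d e f) (hS : Sec4 T) {y' : ℂ}
    (S' : JP U T z y' a b c d e f) (hφ' : pt z (φ + j) = y') :
    j + 1 ≤ x0 + 6 ∧ x2' - j < 1 ∧ j - x2 < 1 := by
  have o1 := R.o1; have o2 := R.o2; have o3 := R.o3; have o4 := R.o4; have o0 := R.o0
  have o5 := R.o5; have o6 := R.o6; have o7 := R.o7; have o8 := R.o8; have o9 := R.o9
  have oa := R.oa; have ob := R.ob
  have E0 := ee_C815 C (dist_pt z _) R.p0 R.cl0
  have E0' := ee_A815 C (dist_pt z _) R.p0' R.cl0'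
  have E2 := ee_A815 C (dist_pt z _) R.p2 R.cl2
  have E2' := ee_C815 C (dist_pt z _) R.p2' R.cl2'
  refine ⟨?_, ?_, ?_⟩
  · by_contra h
    push Not at h
    refine (jp_free1 S' hφ').2 ?_
    rw [show φ + j + 1 = φ + ((j - 5) + 6) by ring, pt_six']
    exact R.m0 (j - 5) ⟨by linarith, by linarith⟩
  · by_contra h
    push Not at h
    rcases h.lt_or_eq with h | h
    · refine (jp_free1 S' hφ').2 ?_
      rw [show φ + j + 1 = φ + (j + 1) by ring]
      exact R.m2' (j + 1) ⟨by linarith, by linarith⟩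
    · have e1 : pt z (φ + x2') = pt z (φ + j + 1) := by congr 1; linarith
      have hp := R.p2'
      rw [e1] at hp E2'
      rcases R.w with ⟨-, ⟨h1, h2, h3⟩ | ⟨h1, h2, h3⟩⟩
      · have ht : s2 = !t2 := by
          revert h1 h2 h3; cases s0 <;> cases s2 <;> cases t2 <;> cases t0 <;> decide
        refine jp_pt815 S' hS hφ' (s := t2) (Or.inr hp) E2' E2 ?_
          (pt_ne838 (by intro h; linarith) (by rw [abs_lt]; constructor <;> linarith))
        rw [R.p2, hp, ht, compl815' C]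
      · have ht : t0 = !t2 := by
          revert h1 h2 h3; cases s0 <;> cases s2 <;> cases t2 <;> cases t0 <;> decide
        refine jp_pt815 S' hS hφ' (s := t2) (Or.inr hp) E2' E0' ?_
          (pt_ne838 (by intro h; linarith) (by rw [abs_lt]; constructor <;> linarith))
        rw [R.p0', hp, ht, compl815' C]
  · by_contra h
    push Not at h
    rcases h.lt_or_eq with h | h
    · refine (jp_free5 S' hφ').1 ?_
      rw [show φ + j + 5 = φ + ((j - 1) + 6) by ring, pt_six']
      exact R.m2 (j - 1) ⟨by linarith, by linarith⟩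
    · have e1 : pt z (φ + x2) = pt z (φ + j + 5) := by
        rw [← pt_six' z φ x2]; congr 1; linarith
      have hp := R.p2
      rw [e1] at hp E2
      rcases R.w with ⟨-, ⟨h1, h2, h3⟩ | ⟨h1, h2, h3⟩⟩
      · have ht : t2 = !s2 := by
          revert h1 h2 h3; cases s0 <;> cases s2 <;> cases t2 <;> cases t0 <;> decide
        refine jp_pt815' S' hS hφ' (s := s2) (Or.inl hp) E2 E2' ?_
          (pt_ne838 (by intro h; linarith) (by rw [abs_lt]; constructor <;> linarith))
        rw [R.p2', hp, ht, compl815 C]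
      · have ht : s0 = !s2 := by
          revert h1 h2 h3; cases s0 <;> cases s2 <;> cases t2 <;> cases t0 <;> decide
        have hp0 := R.p0
        rw [← pt_six' z φ x0] at E0 hp0
        refine jp_pt815' S' hS hφ' (s := s2) (Or.inl hp) E2 E0 ?_
          (pt_ne838 (by intro h; linarith) (by rw [abs_lt]; constructor <;> linarith))
        rw [hp0, hp, ht, compl815 C]

end R1

/-! ### Type 2 -/

namespace R2

theorem len (R : R2 T z a b c d e f φ x0 x0' x1 j x1' x2 x2' s0 t0 s1 t1 s2 t2)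
    (C : CzF true true U T z a b c d e f) : x2' - x2 ≤ 1 := by
  by_contra h
  push Not at h
  obtain ⟨u, h1, h2⟩ := exists_between (show x2 < x2' - 1 by linarith)
  exact one815 C.irr (Set.ncard_pair C.dpt.ab) (R.m2 u ⟨h1, by linarith⟩)
    (R.m2 (u + 1) ⟨by linarith, by linarith⟩) rfl

theorem gap (R : R2 T z a b c d e f φ x0 x0' x1 j x1' x2 x2' s0 t0 s1 t1 s2 t2)
    (C : CzF true true U T z a b c d e f) : x0' + 1 ≤ x1 := by
  have o2 := R.o2; have o5 := R.o5; have o6 := R.o6
  by_contra h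
  push Not at h
  obtain ⟨v, h1, h2⟩ := exists_between (show max x1 1 < min (x0' + 1) j from
    max_lt (lt_min h o6) (lt_min (by linarith) (by linarith)))
  have k1 := lt_of_le_of_lt (le_max_left _ _) h1
  have k2 := lt_of_le_of_lt (le_max_right _ _) h1
  have k3 := lt_of_lt_of_le h2 (min_le_left _ _)
  have k4 := lt_of_lt_of_le h2 (min_le_right _ _)
  exact one815 C.irr (Set.ncard_pair C.dpt.ab) (u := v - 1) (v := v) (z := z) (φ := φ)
    (R.m0' (v - 1) ⟨by linarith, by linarith⟩) (R.m1 v ⟨k1, k4⟩) (by ring)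

theorem gap' (R : R2 T z a b c d e f φ x0 x0' x1 j x1' x2 x2' s0 t0 s1 t1 s2 t2)
    (C : CzF true true U T z a b c d e f) (hs : s1 = t1) (h : x1' = x1 + 1) :
    x0' + 1 < x1 := by
  refine lt_of_le_of_ne (R.gap C) fun k => ?_
  have e1 := R.p1
  have e2 := R.p1'
  rw [← k] at e1
  rw [h, ← k, ← hs, show x0' + 1 + 1 = x0' + 2 by ring] at e2
  refine strict815' C.irr (u := x0') e1 R.p0' ?_
  rw [e2]; simp

end R2

/-- **`Pre1` from the word table** -/
theorem preI_815 (hS : Sec4 T) (S : CzF true true U T z a b c d e f) (Z : Zn T z a b c d φ q)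
    (hfin : {y | dist y z = 1 ∧ lbF true true T z a b c d e f y ≠ 0}.Finite)
    (C : Cnt T z a b c d e f 1 1 2 2 2) (hJ : lbF true true T z a b c d e f (pt z φ) = 6)
    (HJ : ∀ y, dist y z = 1 → T y = T z → JP U T z y a b c d e f) :
    ∃ x0 x0' x1 x1' x2 j x2' s0 t0 s1 t1 s2 t2,
      Pre1 T z a b c d e f φ x0 x0' x1 x1' x2 j x2' s0 t0 s1 t1 s2 t2 := by
  obtain ⟨x0, x0', x1, x1', x2, j, x2', s0, t0, s1, t1, s2, t2, R⟩ := r1_815 S Z hfin C hJ
  have o0 := R.o0; have o1 := R.o1; have o2 := R.o2; have o3 := R.o3; have o4 := R.o4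
  have o5 := R.o5; have o6 := R.o6; have o7 := R.o7; have o8 := R.o8; have o9 := R.o9
  have oa := R.oa; have ob := R.ob
  have hP := HJ (pt z φ) (dist_pt z φ) R.J
  have hP' := HJ (pt z (φ + j)) (dist_pt z _) R.J'
  obtain ⟨k1, k2, k3⟩ := R.tie S hS hP rfl
  obtain ⟨m1, m2, m3⟩ := R.snd S hS hP' rfl
  obtain ⟨l6, n, hn, Z'⟩ := second815 S Z hP rfl R.J' (by linarith) (by linarith) o9 R.m2 oa R.m2'
  obtain ⟨y0, y0', y1, j', y1', y2, y2', u0, v0, u1, v1, u2, v2, R'⟩ :=
    r2_815 (czf_sw815 S) Z' (fin_sw815 hfin) (cnt_sw815 C) l6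
  have hlt := Z.lt
  have hlt' := Z.lt'
  -- the zone time
  have hn1 : n = -1 := by
    have k4 : (n : ℝ) < 0 := by linarith
    have k5 : (-2 : ℝ) < n := by linarith
    have k6 : n < 0 := by exact_mod_cast k4
    have k7 : -2 < n := by exact_mod_cast k5
    omega
  have hD : q - φ = j - 3 := by rw [hn1] at hn; push_cast at hn; linarith
  -- the plain block ends before `j - 1`
  have hα : x1' ≤ j - 1 := by
    by_contra hcon
    push Not at hcon
    have w1 := R'.o0; have w2 := R'.x2'_le (jp_sw815 hP') rfl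
    have key : ∀ u, max 5 (x1 + 6 - j) < u → u < x1' + 6 - j →
        pt z (φ + j + u) ∈ Ex T z {c, d} ∧ 5 < u ∧ u < 6 := by
      intro u h1 h2
      have h3 := lt_of_le_of_lt (le_max_left _ _) h1
      have h4 := lt_of_le_of_lt (le_max_right _ _) h1
      refine ⟨?_, h3, by linarith⟩
      rw [show φ + j + u = φ + ((u + j - 6) + 6) by ring, pt_six']
      exact R.m1 _ ⟨by linarith, by linarith⟩
    have hlo : max 5 (x1 + 6 - j) < x1' + 6 - j := max_lt (by linarith) (by linarith)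
    rcases lt_or_ge (max 5 (x1 + 6 - j)) (y0 + 6) with h5 | h5
    · obtain ⟨u, h1, h2⟩ := exists_between (lt_min hlo h5)
      obtain ⟨h3, h4, h6⟩ := key u h1 (lt_of_lt_of_le h2 (min_le_left _ _))
      exact (R'.g2 u ⟨by linarith, lt_of_lt_of_le h2 (min_le_right _ _)⟩).1 (subset_closure h3)
    · obtain ⟨u, h1, h2⟩ := exists_between hlo
      obtain ⟨h3, h4, h6⟩ := key u h1 h2
      have h7 := R'.m0 (u - 6) ⟨by linarith, by linarith⟩
      have h8 : pt z (φ + j + (u - 6)) = pt z (φ + j + u) := by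
        rw [← pt_six' z (φ + j) (u - 6)]; congr 2; ring
      rw [h8] at h7
      exact ex_disj815 S h7 h3
  -- the zones
  have hε : j < x1 + 3 := by
    obtain ⟨m, h1, h2⟩ := Z.zC _ R.cl1
    have hm : m = 0 := by
      have k4 : (m : ℝ) < 1 := by linarith
      have k5 : (-1 : ℝ) < m := by linarith
      have k6 : m < 1 := by exact_mod_cast k4
      have k7 : -1 < m := by exact_mod_cast k5
      omega
    rw [hm] at h1
    push_cast at h1
    refine lt_of_le_of_ne (by linarith) fun k => ?_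
    refine (jp_anti hP' rfl).2 ?_
    rw [show φ + j + 3 = φ + (x1 + 6) by rw [k]; ring, pt_six']
    exact R.cl1
  have hζ : x0' + 3 < j := by
    obtain ⟨m, h1, h2⟩ := Z.zA _ R.cl0'
    have hm : m = 0 := by
      have k4 : (m : ℝ) < 1 := by linarith
      have k5 : (-1 : ℝ) < m := by linarith
      have k6 : m < 1 := by exact_mod_cast k4
      have k7 : -1 < m := by exact_mod_cast k5
      omega
    rw [hm] at h2
    push_cast at h2
    refine lt_of_le_of_ne (by linarith) fun k => ?_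
    refine (jp_anti hP' rfl).1 ?_
    rw [show φ + j + 3 = φ + (x0' + 6) by rw [← k]; ring, pt_six']
    exact R.cl0'
  refine ⟨x0, x0', x1, x1', x2, j, x2', s0, t0, s1, t1, s2, t2, ?_⟩
  exact
    { R with
      ee0 := ee_C815 S (dist_pt z _) R.p0 R.cl0
      ee0' := ee_A815 S (dist_pt z _) R.p0' R.cl0'
      ee1 := ee_C815 S (dist_pt z _) R.p1 R.cl1
      ee1' := ee_C815 S (dist_pt z _) R.p1' R.cl1'
      ee2 := ee_A815 S (dist_pt z _) R.p2 R.cl2
      ee2' := ee_C815 S (dist_pt z _) R.p2' R.cl2'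
      blk := R.blk k1 k2 k3
      g :=
        { j := ⟨φ + j, by linarith, by linarith, by linarith, by linarith⟩
          len := by have := R.len S; linarith
          gap := by have := R.gap S; linarith
          gap' := fun h1 h2 => by have := R.gap' S h1 (by linarith); linarith }
      gap := R.gap S
      j0 := m2
      j0' := m3
      j1 := by linarith
      j3 := hε
      j4 := hζ }

/-- **`Pre2` from the word table** -/
theorem preII_815 (hS : Sec4 T) (S : CzF true true U T z a b c d e f) (Z : Zn T z a b c d φ q)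
    (hfin : {y | dist y z = 1 ∧ lbF true true T z a b c d e f y ≠ 0}.Finite)
    (C : Cnt T z a b c d e f 2 2 1 1 2) (hJ : lbF true true T z a b c d e f (pt z φ) = 6)
    (HJ : ∀ y, dist y z = 1 → T y = T z → JP U T z y a b c d e f) :
    (∃ x0 x0' x1 j x1' x2 x2' s0 t0 s1 t1 s2 t2,
      Pre2 T z a b c d e f φ x0 x0' x1 j x1' x2 x2' s0 t0 s1 t1 s2 t2) ∧
    ∃ φ' x0 x0' x1 x1' x2 j x2' s0 t0 s1 t1 s2 t2, T (pt z φ') = T z ∧
      Pre1 T z c d a b f e φ' x0 x0' x1 x1' x2 j x2' s0 t0 s1 t1 s2 t2 := by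
  obtain ⟨x0, x0', x1, j, x1', x2, x2', s0, t0, s1, t1, s2, t2, R⟩ := r2_815 S Z hfin C hJ
  have o0 := R.o0; have o1 := R.o1; have o2 := R.o2; have o3 := R.o3; have o4 := R.o4
  have o5 := R.o5; have o6 := R.o6; have o6' := R.o6'; have o7 := R.o7; have o8 := R.o8
  have o9 := R.o9; have oa := R.oa; have ob := R.ob
  have hP := HJ (pt z φ) (dist_pt z φ) R.J
  obtain ⟨k1, k2, k3, k4⟩ := R.tie S hS hP rfl
  obtain ⟨l6, n, hn, Z'⟩ := second815 S Z hP rfl R.J' (by linarith) (by linarith) o6 R.m1 o6' R.m1'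
  have HJ' : ∀ y, dist y z = 1 → T y = T z → JP U T z y c d a b f e :=
    fun y h1 h2 => jp_sw815 (HJ y h1 h2)
  obtain ⟨y0, y0', y1, y1', y2, j', y2', u0, v0, u1, v1, u2, v2, R'⟩ :=
    r1_815 (czf_sw815 S) Z' (fin_sw815 hfin) (cnt_sw815 C) l6
  have hgap := R.gap S
  -- the plain block begins after `j + 1`
  have hβ : j + 1 ≤ x2 := by
    by_contra hcon
    push Not at hcon
    have w1 := R'.o5
    have key : ∀ u, x2 - j < u → u < min (x2' - j) 1 →
        pt z (φ + j + u) ∈ Ex T z {a, b} ∧ 0 < u ∧ u < 1 := by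
      intro u h1 h2
      have h3 := lt_of_lt_of_le h2 (min_le_left _ _)
      have h4 := lt_of_lt_of_le h2 (min_le_right _ _)
      refine ⟨?_, by linarith, h4⟩
      rw [show φ + j + u = φ + (j + u) by ring]
      exact R.m2 _ ⟨by linarith, by linarith⟩
    have hlo : x2 - j < min (x2' - j) 1 := lt_min (by linarith) (by linarith)
    rcases lt_or_ge (x2 - j) y0' with h5 | h5
    · obtain ⟨u, h1, h2⟩ := exists_between (lt_min hlo h5)
      obtain ⟨h3, h4, h6⟩ := key u h1 (lt_of_lt_of_le h2 (min_le_left _ _))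
      have h7 := R'.m0' u ⟨h4, lt_of_lt_of_le h2 (min_le_right _ _)⟩
      exact ex_disj815 S h3 h7
    · obtain ⟨u, h1, h2⟩ := exists_between hlo
      obtain ⟨h3, h4, h6⟩ := key u h1 h2
      exact (R'.g0 u ⟨by linarith, by linarith⟩).2 (subset_closure h3)
  constructor
  · refine ⟨x0, x0', x1, j, x1', x2, x2', s0, t0, s1, t1, s2, t2, ?_⟩
    exact
      { R with
        ee0 := ee_C815 S (dist_pt z _) R.p0 R.cl0
        ee0' := ee_A815 S (dist_pt z _) R.p0' R.cl0'
        ee1 := ee_A815 S (dist_pt z _) R.p1 R.cl1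
        ee1' := ee_C815 S (dist_pt z _) R.p1' R.cl1'
        ee2 := ee_A815 S (dist_pt z _) R.p2 R.cl2
        ee2' := ee_A815 S (dist_pt z _) R.p2' R.cl2'
        blk := R.blk k1 k2 k3 k4
        g :=
          { j := ⟨φ + j, by linarith, by linarith, by linarith, by linarith⟩
            len := by have := R.len S; linarith
            gap := by linarith
            gap' := fun h1 h2 => by have := R.gap' S h1 (by linarith); linarith } }
  · obtain ⟨x0, x0', x1, x1', x2, j1, x2', s0, t0, s1, t1, s2, t2, P⟩ :=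
      preI_815 hS (czf_sw815 S) Z' (fin_sw815 hfin) (cnt_sw815 C) l6 HJ'
    exact ⟨φ + j, x0, x0', x1, x1', x2, j1, x2', s0, t0, s1, t1, s2, t2, R.J', P⟩

/-- **the facts at a given `J`** -/
theorem pre_815 (hS : Sec4 T) (S : CzF true true U T z a b c d e f) (Z : Zn T z a b c d φ q)
    (hfin : {y | dist y z = 1 ∧ lbF true true T z a b c d e f y ≠ 0}.Finite)
    (C : Cnt T z a b c d e f 1 1 2 2 2 ∨ Cnt T z a b c d e f 2 2 1 1 2)
    (hJ : lbF true true T z a b c d e f (pt z φ) = 6)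
    (HJ : ∀ y, dist y z = 1 → T y = T z → JP U T z y a b c d e f) :
    (∃ x0 x0' x1 x1' x2 j x2' s0 t0 s1 t1 s2 t2,
      Pre1 T z a b c d e f φ x0 x0' x1 x1' x2 j x2' s0 t0 s1 t1 s2 t2) ∨
    ∃ x0 x0' x1 j x1' x2 x2' s0 t0 s1 t1 s2 t2,
      Pre2 T z a b c d e f φ x0 x0' x1 j x1' x2 x2' s0 t0 s1 t1 s2 t2 := by
  rcases C with C | C
  · exact Or.inl (preI_815 hS S Z hfin C hJ HJ)
  · exact Or.inr (preII_815 hS S Z hfin C hJ HJ).1

/-- **type 1 at one of the two `J`s** -/
theorem pre1_815 (hS : Sec4 T) (S : CzF true true U T z a b c d e f) (Z : Zn T z a b c d φ q)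
    (hfin : {y | dist y z = 1 ∧ lbF true true T z a b c d e f y ≠ 0}.Finite)
    (C : Cnt T z a b c d e f 1 1 2 2 2 ∨ Cnt T z a b c d e f 2 2 1 1 2)
    (hJ : lbF true true T z a b c d e f (pt z φ) = 6)
    (HJ : ∀ y, dist y z = 1 → T y = T z → JP U T z y a b c d e f) :
    ∃ φ' a' b' c' d' e' f' x0 x0' x1 x1' x2 j x2' s0 t0 s1 t1 s2 t2,
      DPt T z a' b' c' d' ∧ [a', b', c', d', e', f'].Nodup ∧
      Pre1 T z a' b' c' d' e' f' φ' x0 x0' x1 x1' x2 j x2' s0 t0 s1 t1 s2 t2 := by
  rcases C with C | C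
  · obtain ⟨x0, x0', x1, x1', x2, j1, x2', s0, t0, s1, t1, s2, t2, P⟩ :=
      preI_815 hS S Z hfin C hJ HJ
    exact ⟨φ, a, b, c, d, e, f, x0, x0', x1, x1', x2, j1, x2', s0, t0, s1, t1, s2, t2, S.dpt, S.nd,
      P⟩
  · obtain ⟨-, φ', x0, x0', x1, x1', x2, j1, x2', s0, t0, s1, t1, s2, t2, -, P⟩ :=
      preII_815 hS S Z hfin C hJ HJ
    exact ⟨φ', c, d, a, b, f, e, x0, x0', x1, x1', x2, j1, x2', s0, t0, s1, t1, s2, t2,
      (czf_sw815 S).dpt, (czf_sw815 S).nd, P⟩

end Vale.Agent.P032.H815
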