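import Vale.Agent.P032.H815.JLst
import Vale.Agent.P032.H838.Tie
import Vale.Agent.P032.H594.JSg

/-!
# P032: the ties at a `J`-partner and the blocks (helper815)

Over `JLst`.  `czf_sw815`, `cnt_sw815`, .. : exchange of the pairs and of the free colours.
`ee_A815`, `ee_C815` : the ends of the arcs are ends of a comp network.
`tie1_815`, `tie2_815` : the block of the `J` is shorter than one on both sides, and no block starts
at the antipode.  `blk1_815`, `blk2_815` : the three blocks.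
-/

open Set Filter Topology Metric

noncomputable section

namespace Vale.Agent.P032.H815

open Vale.Agent.P032.Six Vale.Agent.P032.S5.H767 Vale.Agent.P032.S5.H349
  Vale.Agent.P032.S5.H450
open Vale.Agent.P032.H987 hiding lb
open Vale.Agent.P032.H546 (Lst wds2 wds3 Cnt list2 list3)
open Vale.Agent.P032.H594 (JPair Ad Blk)
open Vale.Agent.P032.H471 (Sec4)
open Vale.Agent.P032.H838 (pt_ne838)

variable {U : Fin 6 → Set ℂ} {T : ℂ → Set (Fin 6)} {z y : ℂ} {a b c d e f : Fin 6} {p q φ : ℝ}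

/-! ### Exchange of the pairs and of the free colours -/

theorem czf_sw815 (S : CzF true true U T z a b c d e f) : CzF true true U T z c d a b f e where
  irr := S.irr
  dpt := S.dpt.swap
  nd := by
    have h := S.nd
    simp only [List.nodup_cons, List.mem_cons, List.not_mem_nil, or_false, not_or, List.nodup_nil,
      and_true, not_false_eq_true] at h ⊢
    obtain ⟨⟨ab, ac, ad, ae, af⟩, ⟨bc, bd, be, bf⟩, ⟨cd, ce, cf⟩, ⟨de, df⟩, ef⟩ := h
    exact ⟨⟨cd, Ne.symm ac, Ne.symm bc, cf, ce⟩, ⟨Ne.symm ad, Ne.symm bd, df, de⟩, ⟨ab, af, ae⟩,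
      ⟨bf, be⟩, Ne.symm ef⟩
  hJ := S.hJ
  cln := fun y hy h => S.cln y hy h.symm
  nj := S.nj
  cln1 := fun _ y hy h1 h2 => S.cln2 rfl y hy h1 h2
  cln2 := fun _ y hy h1 h2 => S.cln1 rfl y hy h1 h2

theorem cnt_sw815 {n0 n1 n2 n3 n4 : ℕ} (C : Cnt T z a b c d e f n0 n1 n2 n3 n4) :
    Cnt T z c d a b f e n3 n2 n1 n0 n4 :=
  ⟨C.cdf, C.cde, C.abf, C.abe, C.jj⟩

theorem lbF_ne' {y : ℂ} (h : T y = T z ∨ T y = {a, b, e} ∨ T y = {c, d, f} ∨
    (T y = {a, b, f} ∧ y ∈ closure (Ex T z {a, b})) ∨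
    (T y = {c, d, e} ∧ y ∈ closure (Ex T z {c, d}))) :
    lbF true true T z a b c d e f y ≠ 0 := by
  unfold lbF
  by_cases h1 : T y = T z
  · rw [if_pos h1]; split_ifs <;> decide
  rw [if_neg h1]
  by_cases h2 : T y = {a, b, e}
  · rw [if_pos h2]; split_ifs <;> decide
  rw [if_neg h2]
  by_cases h3 : T y = {c, d, f}
  · rw [if_pos h3]; split_ifs <;> decide
  rw [if_neg h3]
  by_cases h4 : true = true ∧ T y = {a, b, f} ∧ y ∈ closure (Ex T z {a, b})
  · rw [if_pos h4]; split_ifs <;> decide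
  rw [if_neg h4]
  have h5 : true = true ∧ T y = {c, d, e} ∧ y ∈ closure (Ex T z {c, d}) := by
    rcases h with h | h | h | h | h
    · exact absurd h h1
    · exact absurd h h2
    · exact absurd h h3
    · exact absurd ⟨rfl, h⟩ h4
    · exact ⟨rfl, h⟩
  rw [if_pos h5]; split_ifs <;> decide

theorem fin_sw815 (h : {y | dist y z = 1 ∧ lbF true true T z a b c d e f y ≠ 0}.Finite) :
    {y | dist y z = 1 ∧ lbF true true T z c d a b f e y ≠ 0}.Finite := by
  refine h.subset fun y hy => ⟨hy.1, lbF_ne' ?_⟩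
  rcases lbF_ne hy.2 with k | k | k | k | k
  · exact Or.inl k
  · exact Or.inr (Or.inr (Or.inl k))
  · exact Or.inr (Or.inl k)
  · exact Or.inr (Or.inr (Or.inr (Or.inr k.2)))
  · exact Or.inr (Or.inr (Or.inr (Or.inl k.2)))

theorem sw_cond {s : Bool} : cond (!s) f e = cond s e f := by cases s <;> rfl

/-- the ends of the `ab`-arcs are ends of a comp network -/
theorem ee_A815 (S : CzF true true U T z a b c d e f) {y : ℂ} (hy : dist y z = 1) {s : Bool}
    (hT : T y = {a, b, cond s e f}) (hcl : y ∈ closure (Ex T z {a, b})) : EE T z y := by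
  obtain ⟨⟨ab, ac, ad, ae, af⟩, ⟨bc, bd, be, bf⟩, ⟨cd, ce, cf⟩, ⟨de, df⟩, ef⟩ := S.nd'
  have hc : Cln T z y := by
    cases s
    · exact S.cln1 rfl y hy hT hcl
    · exact S.cln y hy (Or.inl hT)
  obtain ⟨ga, gb, gc, gd⟩ : a ≠ cond s e f ∧ b ≠ cond s e f ∧ c ≠ cond s e f ∧ d ≠ cond s e f := by
    cases s
    · exact ⟨af, bf, cf, df⟩
    · exact ⟨ae, be, ce, de⟩
  generalize cond s e f = g at hT ga gb gc gd
  have hin : T z ∩ T y = {a, b} := by
    rw [S.dpt.pal, hT]
    ext i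
    simp only [mem_inter_iff, mem_insert_iff, mem_singleton_iff]
    constructor
    · rintro ⟨h1, h2 | h2 | h2⟩
      · exact Or.inl h2
      · exact Or.inr h2
      · exfalso
        rw [h2] at h1
        rcases h1 with h1 | h1 | h1 | h1
        exacts [ga h1.symm, gb h1.symm, gc h1.symm, gd h1.symm]
    · rintro (h1 | h1)
      · exact ⟨Or.inl h1, Or.inl h1⟩
      · exact ⟨Or.inr (Or.inl h1), Or.inr (Or.inl h1)⟩
  have hdf : T z \ T y = {c, d} := by
    rw [S.dpt.pal, hT]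
    ext i
    simp only [Set.mem_sdiff, mem_insert_iff, mem_singleton_iff, not_or]
    constructor
    · rintro ⟨h1, h2, h3, -⟩
      rcases h1 with h1 | h1 | h1 | h1
      exacts [absurd h1 h2, absurd h1 h3, Or.inl h1, Or.inr h1]
    · rintro (rfl | rfl)
      · exact ⟨by simp, ac.symm, bc.symm, gc⟩
      · exact ⟨by simp, ad.symm, bd.symm, gd⟩
  obtain ⟨o, ε, ho, hε, h1, -⟩ := hc
  refine ⟨⟨o, ho, hy, S.four, ?_, ?_, ε, hε, h1⟩, ?_⟩
  · rw [hT]; exact ncard_three ab ga gb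
  · rw [hin]; exact Set.ncard_pair ab
  · obtain ⟨r, hr⟩ := S.dpt.arc2
    exact ⟨r, by rw [hdf]; exact hr⟩

theorem ee_C815 (S : CzF true true U T z a b c d e f) {y : ℂ} (hy : dist y z = 1) {s : Bool}
    (hT : T y = {c, d, cond s e f}) (hcl : y ∈ closure (Ex T z {c, d})) : EE T z y :=
  ee_A815 (czf_sw815 S) hy (s := !s) (by rw [hT, sw_cond]) hcl

/-! ### The `J`-partner -/

/-- the two names of the `J`-partner -/
def JP (U : Fin 6 → Set ℂ) (T : ℂ → Set (Fin 6)) (z y : ℂ) (a b c d e f : Fin 6) : Prop :=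
  JPair U T z y a b c d e f ∨ JPair U T z y a b d c e f

theorem pal4_815 {X : ℂ} {s : Bool} (h : T X = {a, b, cond s e f} ∨ T X = {c, d, cond s e f}) :
    (T X = {a, b, e} ∨ T X = {c, d, e}) ∨ T X = {a, b, f} ∨ T X = {c, d, f} := by
  cases s
  · rcases h with h | h
    · exact Or.inr (Or.inl h)
    · exact Or.inr (Or.inr h)
  · rcases h with h | h
    · exact Or.inl (Or.inl h)
    · exact Or.inl (Or.inr h)

theorem compl815 (S : CzF true true U T z a b c d e f) (s : Bool) :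
    ({a, b, cond s e f} : Set (Fin 6))ᶜ = {c, d, cond (!s) e f} := by
  have C := S.toCz.ctr
  have C' := S.toCz.swapEF.ctr
  cases s
  · exact H597.compl_abe C'
  · exact H597.compl_abe C

theorem compl815' (S : CzF true true U T z a b c d e f) (s : Bool) :
    ({c, d, cond s e f} : Set (Fin 6))ᶜ = {a, b, cond (!s) e f} := by
  have h := compl815 S (!s)
  rw [Bool.not_not] at h
  rw [← h, compl_compl]

/-- the names of the second pair -/
theorem jp_pt815 (S : JP U T z y a b c d e f) (hS : Sec4 T) (hφ : pt z φ = y) {t : ℝ} {s : Bool}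
    (hT : T (pt z (φ + 1)) = {a, b, cond s e f} ∨ T (pt z (φ + 1)) = {c, d, cond s e f})
    (hX : EE T z (pt z (φ + 1))) (hv : EE T z (pt z t)) (hc : T (pt z t) = (T (pt z (φ + 1)))ᶜ)
    (hne : pt z t ≠ pt z (φ + 2)) : False := by
  rcases S with S | S
  · exact H913.no_end_pt913 S hS hφ (pal4_815 hT) hX hv hc hne
  · refine H913.no_end_pt913 S hS hφ (pal4_815 (s := s) ?_) hX hv hc hne
    rcases hT with h | h
    · exact Or.inl h
    · right; rw [h, Set.insert_comm]

theorem jp_pt815' (S : JP U T z y a b c d e f) (hS : Sec4 T) (hφ : pt z φ = y) {t : ℝ} {s : Bool}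
    (hT : T (pt z (φ + 5)) = {a, b, cond s e f} ∨ T (pt z (φ + 5)) = {c, d, cond s e f})
    (hX : EE T z (pt z (φ + 5))) (hv : EE T z (pt z t)) (hc : T (pt z t) = (T (pt z (φ + 5)))ᶜ)
    (hne : pt z t ≠ pt z (φ + 4)) : False := by
  rcases S with S | S
  · exact H913.no_end_pt913' S hS hφ (pal4_815 hT) hX hv hc hne
  · refine H913.no_end_pt913' S hS hφ (pal4_815 (s := s) ?_) hX hv hc hne
    rcases hT with h | h
    · exact Or.inl h
    · right; rw [h, Set.insert_comm]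

/-- the common points of the two circles are on no exact arc -/
theorem jp_free815 (S : JP U T z y a b c d e f) {X : ℂ} (hX : dist X z = 1) (hX' : dist X y = 1) :
    X ∉ Ex T z {a, b} ∧ X ∉ Ex T z {c, d} := by
  have key : ∀ c d : Fin 6, JPair U T z y a b c d e f → X ∉ Ex T z {a, b} ∧ X ∉ Ex T z {c, d} := by
    intro c d S
    obtain ⟨⟨ab, ac, ad, ae, af⟩, ⟨bc, bd, be, bf⟩, ⟨cd, ce, cf⟩, ⟨de, df⟩, ef⟩ :=
      S5.H349.nd_ne S.nd
    constructor
    · intro h
      have h1 := ex_self h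
      have hne : T X ≠ T z := by
        intro h2
        have h4 : c ∈ T X := by rw [h2, S.hz.pal]; simp
        rw [h1] at h4
        rcases h4 with h4 | h4
        exacts [ac h4.symm, bc h4.symm]
      rcases H913.free913 S hX hX' hne with h3 | h3
      · rw [h1] at h3
        rcases h3 with h3 | h3
        exacts [ae h3.symm, be h3.symm]
      · rw [h1] at h3
        rcases h3 with h3 | h3
        exacts [af h3.symm, bf h3.symm]
    · intro h
      have h1 := ex_self h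
      have hne : T X ≠ T z := by
        intro h2
        have h4 : a ∈ T X := by rw [h2, S.hz.pal]; simp
        rw [h1] at h4
        rcases h4 with h4 | h4
        exacts [ac h4, ad h4]
      rcases H913.free913 S hX hX' hne with h3 | h3
      · rw [h1] at h3
        rcases h3 with h3 | h3
        exacts [ce h3.symm, de h3.symm]
      · rw [h1] at h3
        rcases h3 with h3 | h3
        exacts [cf h3.symm, df h3.symm]
  rcases S with S | S
  · exact key c d S
  · have := key d c S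
    rwa [Set.pair_comm d c] at this

theorem jp_free1 (S : JP U T z y a b c d e f) (hφ : pt z φ = y) :
    pt z (φ + 1) ∉ Ex T z {a, b} ∧ pt z (φ + 1) ∉ Ex T z {c, d} :=
  jp_free815 S (dist_pt z _) (by rw [← H913.pt_common hφ]; exact dist_pt y _)

theorem jp_free5 (S : JP U T z y a b c d e f) (hφ : pt z φ = y) :
    pt z (φ + 5) ∉ Ex T z {a, b} ∧ pt z (φ + 5) ∉ Ex T z {c, d} :=
  jp_free815 S (dist_pt z _) (by rw [← H913.pt_common' hφ]; exact dist_pt y _)

/-- the antipode of the `J`-partner -/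
theorem jp_anti (S : JP U T z y a b c d e f) (hφ : pt z φ = y) :
    pt z (φ + 3) ∉ closure (Ex T z {a, b}) ∧ pt z (φ + 3) ∉ closure (Ex T z {c, d}) := by
  have key : ∀ c d : Fin 6, JPair U T z y a b c d e f →
      pt z (φ + 3) ∉ closure (Ex T z {a, b}) ∧ pt z (φ + 3) ∉ closure (Ex T z {c, d}) := by
    intro c d S
    have h := H913.anti913 S hφ
    exact ⟨fun h1 => h (Or.inl h1), fun h1 => h (Or.inr h1)⟩
  rcases S with S | S
  · exact key c d S
  · have := key d c S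
    rwa [Set.pair_comm d c] at this

theorem pt_six' (z : ℂ) (φ t : ℝ) : pt z (φ + (t + 6)) = pt z (φ + t) := by
  rw [← pt_six z (φ + t)]; congr 1; ring

/-- two exact points of the same arc type at distance one -/
theorem one815 (h : Irr U T) {P : Set (Fin 6)} (hP : P.ncard = 2) {u v : ℝ}
    (h1 : pt z (φ + u) ∈ Ex T z P) (h2 : pt z (φ + v) ∈ Ex T z P) (hv : v = u + 1) : False := by
  subst hv
  obtain ⟨x, hx, hx'⟩ := h.not_sub' (dist_pt_one z (φ + u))
    (by rw [show φ + u + 1 = φ + (u + 1) by ring, ex_self h2, hP]; norm_num)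
  rw [ex_self h1] at hx
  rw [show φ + u + 1 = φ + (u + 1) by ring, ex_self h2] at hx'
  exact hx' hx

variable {x0 x0' x1 x1' x2 x2' j : ℝ} {s0 t0 s1 t1 s2 t2 : Bool}

/-! ### The ends -/

namespace R1

theorem cl0 (R : R1 T z a b c d e f φ x0 x0' x1 x1' x2 j x2' s0 t0 s1 t1 s2 t2) :
    pt z (φ + x0) ∈ closure (Ex T z {c, d}) := cl_Icc815 R.o1 R.m0 ⟨le_rfl, R.o1.le⟩

theorem cl0' (R : R1 T z a b c d e f φ x0 x0' x1 x1' x2 j x2' s0 t0 s1 t1 s2 t2) :
    pt z (φ + x0') ∈ closure (Ex T z {a, b}) := cl_Icc815 R.o2 R.m0' ⟨R.o2.le, le_rfl⟩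

theorem cl1 (R : R1 T z a b c d e f φ x0 x0' x1 x1' x2 j x2' s0 t0 s1 t1 s2 t2) :
    pt z (φ + x1) ∈ closure (Ex T z {c, d}) := cl_Icc815 R.o6 R.m1 ⟨le_rfl, R.o6.le⟩

theorem cl1' (R : R1 T z a b c d e f φ x0 x0' x1 x1' x2 j x2' s0 t0 s1 t1 s2 t2) :
    pt z (φ + x1') ∈ closure (Ex T z {c, d}) := cl_Icc815 R.o6 R.m1 ⟨R.o6.le, le_rfl⟩

theorem cl2 (R : R1 T z a b c d e f φ x0 x0' x1 x1' x2 j x2' s0 t0 s1 t1 s2 t2) :
    pt z (φ + x2) ∈ closure (Ex T z {a, b}) := cl_Icc815 R.o9 R.m2 ⟨le_rfl, R.o9.le⟩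

theorem cl2' (R : R1 T z a b c d e f φ x0 x0' x1 x1' x2 j x2' s0 t0 s1 t1 s2 t2) :
    pt z (φ + x2') ∈ closure (Ex T z {c, d}) := cl_Icc815 R.oa R.m2' ⟨R.oa.le, le_rfl⟩

theorem x0'_le (R : R1 T z a b c d e f φ x0 x0' x1 x1' x2 j x2' s0 t0 s1 t1 s2 t2)
    (S : JP U T z y a b c d e f) (hφ : pt z φ = y) : x0' ≤ 1 := by
  by_contra h
  push Not at h
  exact (jp_free1 S hφ).1 (R.m0' 1 ⟨by norm_num, h⟩)

/-- **the ties at the `J`, type 1** -/
theorem tie (R : R1 T z a b c d e f φ x0 x0' x1 x1' x2 j x2' s0 t0 s1 t1 s2 t2)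
    (C : CzF true true U T z a b c d e f) (hS : Sec4 T) (S : JP U T z y a b c d e f)
    (hφ : pt z φ = y) : -1 < x0 ∧ x0' < 1 ∧ 3 < x2 := by
  have o0 := R.o0; have o1 := R.o1; have o2 := R.o2; have o3 := R.o3; have o4 := R.o4
  have o5 := R.o5; have o6 := R.o6; have o7 := R.o7; have o8 := R.o8; have o9 := R.o9
  have oa := R.oa; have ob := R.ob
  have E0 := ee_C815 C (dist_pt z _) R.p0 R.cl0
  have E0' := ee_A815 C (dist_pt z _) R.p0' R.cl0'
  have E2 := ee_A815 C (dist_pt z _) R.p2 R.cl2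
  have E2' := ee_C815 C (dist_pt z _) R.p2' R.cl2'
  refine ⟨lt_of_le_of_ne o0 fun k => ?_, lt_of_le_of_ne (R.x0'_le S hφ) fun k => ?_,
    lt_of_le_of_ne o8 fun k => ?_⟩
  · -- `x0 = -1`
    have e1 : pt z (φ + x0) = pt z (φ + 5) := by
      rw [← pt_six' z φ x0, ← k]; norm_num
    have hp := R.p0
    rw [e1] at hp E0
    rcases R.w with ⟨-, ⟨h1, -, -⟩ | ⟨h1, h2, h3⟩⟩
    · have ht : t0 = !s0 := by revert h1; cases s0 <;> cases t0 <;> decide
      refine jp_pt815' S hS hφ (s := s0) (Or.inr hp) E0 E0' ?_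
        (pt_ne838 (by intro h; linarith) (by rw [abs_lt]; constructor <;> linarith))
      rw [R.p0', hp, ht, compl815' C]
    · have ht : s2 = !s0 := by revert h3; cases s0 <;> cases s2 <;> decide
      by_cases h4 : x2 = 4
      · -- the `cd`-arcs at distance one
        have hj : 4 < j := by linarith
        obtain ⟨u, hu1, hu2⟩ := exists_between oa
        refine one815 C.irr (Set.ncard_pair C.dpt.cd) (u := u) (v := u + 1) (z := z) (φ := φ)
          (R.m2' u ⟨hu1, hu2⟩) ?_ rfl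
        rw [show u + 1 = (u - 5) + 6 by ring, pt_six']
        exact R.m0 (u - 5) ⟨by linarith, by linarith⟩
      · refine jp_pt815' S hS hφ (s := s0) (Or.inr hp) E0 E2 ?_
          (pt_ne838 (fun h => h4 (by linarith)) (by rw [abs_lt]; constructor <;> linarith))
        rw [R.p2, hp, ht, compl815' C]
  · -- `x0' = 1`
    have e1 : pt z (φ + x0') = pt z (φ + 1) := by rw [k]
    have hp := R.p0'
    rw [e1] at hp E0'
    rcases R.w with ⟨-, ⟨h1, -, -⟩ | ⟨h1, h2, h3⟩⟩
    · have ht : s0 = !t0 := by revert h1; cases s0 <;> cases t0 <;> decide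
      refine jp_pt815 S hS hφ (s := t0) (Or.inl hp) E0' E0 ?_
        (pt_ne838 (by intro h; linarith) (by rw [abs_lt]; constructor <;> linarith))
      rw [R.p0, hp, ht, compl815 C]
    · have ht : t2 = !t0 := by
        revert h1 h2 h3; cases s0 <;> cases s2 <;> cases t2 <;> cases t0 <;> decide
      refine jp_pt815 S hS hφ (s := t0) (Or.inl hp) E0' E2' ?_
        (pt_ne838 (by intro h; linarith) (by rw [abs_lt]; constructor <;> linarith))
      rw [R.p2', hp, ht, compl815 C]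
  · have := R.cl2
    rw [← k] at this
    exact (jp_anti S hφ).1 this

end R1

namespace R2

theorem cl0 (R : R2 T z a b c d e f φ x0 x0' x1 j x1' x2 x2' s0 t0 s1 t1 s2 t2) :
    pt z (φ + x0) ∈ closure (Ex T z {c, d}) := cl_Icc815 R.o1 R.m0 ⟨le_rfl, R.o1.le⟩

theorem cl0' (R : R2 T z a b c d e f φ x0 x0' x1 j x1' x2 x2' s0 t0 s1 t1 s2 t2) :
    pt z (φ + x0') ∈ closure (Ex T z {a, b}) := cl_Icc815 R.o2 R.m0' ⟨R.o2.le, le_rfl⟩

theorem cl1 (R : R2 T z a b c d e f φ x0 x0' x1 j x1' x2 x2' s0 t0 s1 t1 s2 t2) :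
    pt z (φ + x1) ∈ closure (Ex T z {a, b}) := cl_Icc815 R.o6 R.m1 ⟨le_rfl, R.o6.le⟩

theorem cl1' (R : R2 T z a b c d e f φ x0 x0' x1 j x1' x2 x2' s0 t0 s1 t1 s2 t2) :
    pt z (φ + x1') ∈ closure (Ex T z {c, d}) := cl_Icc815 R.o6' R.m1' ⟨R.o6'.le, le_rfl⟩

theorem cl2 (R : R2 T z a b c d e f φ x0 x0' x1 j x1' x2 x2' s0 t0 s1 t1 s2 t2) :
    pt z (φ + x2) ∈ closure (Ex T z {a, b}) := cl_Icc815 R.o9 R.m2 ⟨le_rfl, R.o9.le⟩

theorem cl2' (R : R2 T z a b c d e f φ x0 x0' x1 j x1' x2 x2' s0 t0 s1 t1 s2 t2) :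
    pt z (φ + x2') ∈ closure (Ex T z {a, b}) := cl_Icc815 R.o9 R.m2 ⟨R.o9.le, le_rfl⟩

theorem x0'_le (R : R2 T z a b c d e f φ x0 x0' x1 j x1' x2 x2' s0 t0 s1 t1 s2 t2)
    (S : JP U T z y a b c d e f) (hφ : pt z φ = y) : x0' ≤ 1 := by
  by_contra h
  push Not at h
  exact (jp_free1 S hφ).1 (R.m0' 1 ⟨by norm_num, h⟩)

theorem x2'_le (R : R2 T z a b c d e f φ x0 x0' x1 j x1' x2 x2' s0 t0 s1 t1 s2 t2)
    (S : JP U T z y a b c d e f) (hφ : pt z φ = y) : x2' ≤ 5 := by
  by_contra h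
  push Not at h
  exact (jp_free5 S hφ).1 (R.m2 5 ⟨R.oa, h⟩)

/-- **the ties at the `J`, type 2** -/
theorem tie (R : R2 T z a b c d e f φ x0 x0' x1 j x1' x2 x2' s0 t0 s1 t1 s2 t2)
    (C : CzF true true U T z a b c d e f) (hS : Sec4 T) (S : JP U T z y a b c d e f)
    (hφ : pt z φ = y) : -1 < x0 ∧ x0' < 1 ∧ 3 < x2 ∧ x2' < 5 := by
  have o0 := R.o0; have o1 := R.o1; have o2 := R.o2; have o3 := R.o3; have o4 := R.o4
  have o5 := R.o5; have o6 := R.o6; have o6' := R.o6'; have o7 := R.o7; have o8 := R.o8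
  have o9 := R.o9; have oa := R.oa; have ob := R.ob
  have E0 := ee_C815 C (dist_pt z _) R.p0 R.cl0
  have E0' := ee_A815 C (dist_pt z _) R.p0' R.cl0'
  have E1 := ee_A815 C (dist_pt z _) R.p1 R.cl1
  have E1' := ee_C815 C (dist_pt z _) R.p1' R.cl1'
  have E2' := ee_A815 C (dist_pt z _) R.p2' R.cl2'
  refine ⟨lt_of_le_of_ne o0 fun k => ?_, lt_of_le_of_ne (R.x0'_le S hφ) fun k => ?_,
    lt_of_le_of_ne o8 fun k => ?_, lt_of_le_of_ne (R.x2'_le S hφ) fun k => ?_⟩
  · -- `x0 = -1`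
    have e1 : pt z (φ + x0) = pt z (φ + 5) := by
      rw [← pt_six' z φ x0, ← k]; norm_num
    have hp := R.p0
    rw [e1] at hp E0
    rcases R.w with ⟨-, ⟨h1, h2, h3⟩ | ⟨h1, h2, h3⟩⟩
    · have ht : t0 = !s0 := by
        revert h1 h2 h3; cases s0 <;> cases s1 <;> cases t1 <;> cases t0 <;> decide
      refine jp_pt815' S hS hφ (s := s0) (Or.inr hp) E0 E0' ?_
        (pt_ne838 (by intro h; linarith) (by rw [abs_lt]; constructor <;> linarith))
      rw [R.p0', hp, ht, compl815' C]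
    · have ht : s1 = !s0 := by revert h3; cases s0 <;> cases s1 <;> decide
      refine jp_pt815' S hS hφ (s := s0) (Or.inr hp) E0 E1 ?_
        (pt_ne838 (by intro h; linarith) (by rw [abs_lt]; constructor <;> linarith))
      rw [R.p1, hp, ht, compl815' C]
  · -- `x0' = 1`
    have e1 : pt z (φ + x0') = pt z (φ + 1) := by rw [k]
    have hp := R.p0'
    rw [e1] at hp E0'
    rcases R.w with ⟨-, ⟨h1, h2, h3⟩ | ⟨h1, h2, h3⟩⟩
    · have ht : s0 = !t0 := by
        revert h1 h2 h3; cases s0 <;> cases s1 <;> cases t1 <;> cases t0 <;> decide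
      refine jp_pt815 S hS hφ (s := t0) (Or.inl hp) E0' E0 ?_
        (pt_ne838 (by intro h; linarith) (by rw [abs_lt]; constructor <;> linarith))
      rw [R.p0, hp, ht, compl815 C]
    · have ht : t1 = !t0 := by
        revert h1 h2 h3; cases s0 <;> cases s1 <;> cases t1 <;> cases t0 <;> decide
      by_cases h4 : x1' = 2
      · -- the `ab`-arcs at distance one
        obtain ⟨u, hu1, hu2⟩ := exists_between o6
        refine one815 C.irr (Set.ncard_pair C.dpt.ab) (u := u - 1) (v := u) (z := z) (φ := φ)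
          (R.m0' (u - 1) ⟨by linarith, by linarith⟩) (R.m1 u ⟨hu1, hu2⟩) (by ring)
      · refine jp_pt815 S hS hφ (s := t0) (Or.inl hp) E0' E1' ?_
          (pt_ne838 (fun h => h4 (by linarith)) (by rw [abs_lt]; constructor <;> linarith))
        rw [R.p1', hp, ht, compl815 C]
  · have := R.cl2
    rw [← k] at this
    exact (jp_anti S hφ).1 this
  · -- `x2' = 5`
    have hp := R.p2'
    rw [k] at hp E2'
    have hw : s0 = !t2 ∨ t1 = !t2 := by
      have hW := R.w
      unfold W2 at hW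
      revert hW
      cases s0 <;> cases t0 <;> cases s1 <;> cases t1 <;> cases s2 <;> cases t2 <;> decide
    rcases hw with ht | ht
    · refine jp_pt815' S hS hφ (s := t2) (Or.inl hp) E2' E0 ?_
        (pt_ne838 (by intro h; linarith) (by rw [abs_lt]; constructor <;> linarith))
      rw [R.p0, hp, ht, compl815 C]
    · refine jp_pt815' S hS hφ (s := t2) (Or.inl hp) E2' E1' ?_
        (pt_ne838 (by intro h; linarith) (by rw [abs_lt]; constructor <;> linarith))
      rw [R.p1', hp, ht, compl815 C]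

end R2

/-! ### The blocks -/

theorem mem_Ad815 {P Q : Set (Fin 6)} {u : ℝ} (h : pt z (φ + u) ∉ closure (Ex T z P) ∧
    pt z (φ + u) ∉ closure (Ex T z Q)) : φ + u ∉ Ad T z P Q := by
  rintro (k | k)
  · exact h.1 k
  · exact h.2 k

/-- **the three blocks, type 1** -/
theorem R1.blk (R : R1 T z a b c d e f φ x0 x0' x1 x1' x2 j x2' s0 t0 s1 t1 s2 t2)
    (h1 : -1 < x0) (h2 : x0' < 1) (h3 : 3 < x2) :
    Blk (Ad T z {a, b} {c, d}) φ (φ + x0) (φ + x0') (φ + x1) (φ + x1') (φ + x2) (φ + x2') := by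
  have o1 := R.o1; have o2 := R.o2; have o4 := R.o4
  have o5 := R.o5; have o6 := R.o6; have o7 := R.o7; have o9 := R.o9
  have oa := R.oa; have ob := R.ob
  refine ⟨by linarith, by linarith, by linarith, by linarith, by linarith, by linarith,
    by linarith, by linarith, by linarith, by linarith, ?_⟩
  intro t ht1 ht2
  obtain ⟨u, rfl⟩ : ∃ u, t = φ + u := ⟨t - φ, by ring⟩
  constructor
  · intro h
    by_contra hcon
    push Not at hcon
    obtain ⟨k0, k1, k2⟩ := hcon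
    rcases lt_or_ge u x0 with hu | hu
    · refine mem_Ad815 ?_ h
      rw [← pt_six' z φ u]
      exact R.g2 (u + 6) ⟨by linarith, by linarith⟩
    have k0 := k0 (by linarith)
    rcases lt_or_ge u x1 with hu1 | hu1
    · exact mem_Ad815 (R.g0 u ⟨by linarith, hu1⟩) h
    have k1 := k1 (by linarith)
    rcases lt_or_ge u x2 with hu2 | hu2
    · exact mem_Ad815 (R.g1 u ⟨by linarith, hu2⟩) h
    have k2 := k2 (by linarith)
    exact mem_Ad815 (R.g2 u ⟨by linarith, by linarith⟩) h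
  · rintro (⟨k1, k2⟩ | ⟨k1, k2⟩ | ⟨k1, k2⟩)
    · rcases le_total u 0 with hu | hu
      · exact Or.inr (cl_Icc815 R.o1 R.m0 ⟨by linarith, hu⟩)
      · exact Or.inl (cl_Icc815 R.o2 R.m0' ⟨hu, by linarith⟩)
    · exact Or.inr (cl_Icc815 R.o6 R.m1 ⟨by linarith, by linarith⟩)
    · rcases le_total u j with hu | hu
      · exact Or.inl (cl_Icc815 R.o9 R.m2 ⟨by linarith, hu⟩)
      · exact Or.inr (cl_Icc815 R.oa R.m2' ⟨hu, by linarith⟩)

/-- **the three blocks, type 2** -/
theorem R2.blk (R : R2 T z a b c d e f φ x0 x0' x1 j x1' x2 x2' s0 t0 s1 t1 s2 t2)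
    (h1 : -1 < x0) (h2 : x0' < 1) (h3 : 3 < x2) (h4 : x2' < 5) :
    Blk (Ad T z {a, b} {c, d}) φ (φ + x0) (φ + x0') (φ + x1) (φ + x1') (φ + x2) (φ + x2') := by
  have o1 := R.o1; have o2 := R.o2; have o4 := R.o4
  have o5 := R.o5; have o6 := R.o6; have o6' := R.o6'; have o7 := R.o7; have o9 := R.o9
  have ob := R.ob
  refine ⟨by linarith, by linarith, by linarith, by linarith, by linarith, by linarith,
    by linarith, by linarith, by linarith, by linarith, ?_⟩
  intro t ht1 ht2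
  obtain ⟨u, rfl⟩ : ∃ u, t = φ + u := ⟨t - φ, by ring⟩
  constructor
  · intro h
    by_contra hcon
    push Not at hcon
    obtain ⟨k0, k1, k2⟩ := hcon
    rcases lt_or_ge u x0 with hu | hu
    · refine mem_Ad815 ?_ h
      rw [← pt_six' z φ u]
      exact R.g2 (u + 6) ⟨by linarith, by linarith⟩
    have k0 := k0 (by linarith)
    rcases lt_or_ge u x1 with hu1 | hu1
    · exact mem_Ad815 (R.g0 u ⟨by linarith, hu1⟩) h
    have k1 := k1 (by linarith)
    rcases lt_or_ge u x2 with hu2 | hu2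
    · exact mem_Ad815 (R.g1 u ⟨by linarith, hu2⟩) h
    have k2 := k2 (by linarith)
    exact mem_Ad815 (R.g2 u ⟨by linarith, by linarith⟩) h
  · rintro (⟨k1, k2⟩ | ⟨k1, k2⟩ | ⟨k1, k2⟩)
    · rcases le_total u 0 with hu | hu
      · exact Or.inr (cl_Icc815 R.o1 R.m0 ⟨by linarith, hu⟩)
      · exact Or.inl (cl_Icc815 R.o2 R.m0' ⟨hu, by linarith⟩)
    · rcases le_total u j with hu | hu
      · exact Or.inl (cl_Icc815 R.o6 R.m1 ⟨by linarith, hu⟩)
      · exact Or.inr (cl_Icc815 R.o6' R.m1' ⟨hu, by linarith⟩)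
    · exact Or.inl (cl_Icc815 R.o9 R.m2 ⟨by linarith, by linarith⟩)

end Vale.Agent.P032.H815
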