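import Vale.Agent.P032.H838.Glue2
import Vale.Agent.P032.H815.JPre
import Vale.Agent.P032.H815.Base

/-!
# P032: no comp centre with two `J`s, from the counts (helper815)

`noJ2_815` : the last link: the counts of the ends at every comp centre with two `J`s give `NoJ2`.
-/

open Set Filter Topology Metric

noncomputable section

namespace Vale.Agent.P032.H815

open Vale.Agent.P032.Six Vale.Agent.P032.S5.H767 Vale.Agent.P032.S5.H349
  Vale.Agent.P032.S5.H450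
open Vale.Agent.P032.H987 hiding lb
open Vale.Agent.P032.H546 (Cnt)
open Vale.Agent.P032.H594 (JPair Ad Blk NW OnlyJT NoJ1 NoJ2 Comp)
open Vale.Agent.P032.H471 (Sec4)

variable {U : Fin 6 → Set ℂ} {T : ℂ → Set (Fin 6)} {z y : ℂ} {a b c d e f : Fin 6} {p q φ : ℝ}

/-- every `J`-partner has the names -/
theorem jp_all815 (h : Irr U T) (h5 : NoPair5 T) (hT : OnlyJT T) (hD : DPt T z a b c d)
    (nd : [a, b, c, d, e, f].Nodup) : ∀ y, dist y z = 1 → T y = T z → JP U T z y a b c d e f := by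
  intro y hy hTy
  obtain ⟨x, -, -, hx⟩ := H594.exists_dir hy 0 0
  exact H594.jpair594 h hD nd hTy hx (fun v hv => hT.w0 h5 ⟨_, _, _, _, hD⟩ hv)
    (fun v hv => hT.w0 h5 (h.dpt_of_eq169 ⟨_, _, _, _, hD⟩ hy hTy) hv)

/-- the data of a comp centre with two `J`s, with the base `φ` -/
def C2 (U : Fin 6 → Set ℂ) (T : ℂ → Set (Fin 6)) (z : ℂ) (φ : ℝ) : Prop :=
  ∃ a b c d e f q, CzF true true U T z a b c d e f ∧ Zn T z a b c d φ q ∧
    {y | dist y z = 1 ∧ lbF true true T z a b c d e f y ≠ 0}.Finite ∧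
    (Cnt T z a b c d e f 1 1 2 2 2 ∨ Cnt T z a b c d e f 2 2 1 1 2) ∧
    lbF true true T z a b c d e f (pt z φ) = 6

/-- **no comp centre with two `J`s, from the counts** -/
theorem noJ2_815 (h : Irr U T) (h5 : NoPair5 T) (hT : OnlyJT T) (hS : Sec4 T) (h1 : NoJ1 T)
    (h22 : ∀ {z v v' x x'}, EE T z v → EE T z v' → EE T z x → EE T z x' → T v' = T v →
      T x = (T v)ᶜ → T x' = (T v)ᶜ → v ≠ v' → x ≠ x' → False)
    (HC : ∀ z y y', Comp T z → H594.Jp T z y → H594.Jp T z y' → y ≠ y' →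
      ∀ φ, pt z φ = y → C2 U T z φ) : NoJ2 T := by
  refine H838.noJ2_of_pre h h5 hT hS h1 h22 ?_ ?_
  · intro z y y' hz hy hy' hne
    obtain ⟨x, -, -, hx⟩ := H594.exists_dir hy.1 0 0
    obtain ⟨a, b, c, d, e, f, q, S, Z, hfin, C, hJ⟩ := HC z y y' hz hy hy' hne (0 + x) hx.symm
    exact pre1_815 hS S Z hfin C hJ (jp_all815 h h5 hT S.dpt S.nd)
  · intro z φ y' hz hy hy' hne
    obtain ⟨a, b, c, d, e, f, q, S, Z, hfin, C, hJ⟩ := HC z (pt z φ) y' hz hy hy' hne φ rfl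
    exact ⟨a, b, c, d, e, f, S.dpt, S.nd, pre_815 hS S Z hfin C hJ (jp_all815 h h5 hT S.dpt S.nd)⟩

/-- the data with any base direction of the zones -/
theorem c2_of815 (h : Irr U T) (hy : T (pt z φ) = T z)
    (H : ∃ a b c d e f p q, CzF true true U T z a b c d e f ∧ Zn T z a b c d p q ∧
      {y | dist y z = 1 ∧ lbF true true T z a b c d e f y ≠ 0}.Finite ∧
      (Cnt T z a b c d e f 1 1 2 2 2 ∨ Cnt T z a b c d e f 2 2 1 1 2)) : C2 U T z φ := by
  obtain ⟨a, b, c, d, e, f, p, q, S, Z, hfin, C⟩ := H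
  rcases base815 h S.dpt Z hy with ⟨q', Z', hl⟩ | ⟨q', Z', hl⟩
  · exact ⟨a, b, c, d, e, f, q', S, Z', hfin, C, hl _ _ _ _⟩
  · exact ⟨c, d, a, b, f, e, q', czf_sw815 S, Z', fin_sw815 hfin,
      C.symm.imp cnt_sw815 cnt_sw815, hl _ _ _ _⟩

end Vale.Agent.P032.H815
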