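import Vale.Agent.P032.H926.Box

/-!
# P032: propagation of the border of the two free colours inside a cell

`Ok.prop815` : a connected set of points with all colours outside `T w` which meets the border in a
box of `w` stays in that box.
`Ok.corner815` : a point of the border in a box has only the colours outside `T w`, or it is a
complementary corner of the box.
`Ok.arc815` : an exact arc of ANY circle `S(y)` with the colours outside `T w`, one closure point of
which is in the box, has all its closure points in the box; a closure point `r` with a further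
colour is a complementary corner of the same box.
-/

open Set Filter Topology Metric

noncomputable section

namespace Vale.Agent.P032.H926

open Vale.Agent.P032.Six Vale.Agent.P032.S5.H767 Vale.Agent.P032.H187

variable {U : Fin 6 → Set ℂ} {T : ℂ → Set (Fin 6)} {B : Box}

namespace Box

/-- **propagation**: a connected set of points with both free colours stays in the box -/
theorem Ok.prop815 (hB : B.Ok T) (h : Irr U T) (hmin : Mn U T) {S : Set ℂ}
    (hS : IsPreconnected S) (hc : ∀ x ∈ S, ∀ i, i ∉ T B.w → i ∈ T x)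
    (hm : (S ∩ B.oo T).Nonempty) : S ⊆ B.oo T := by
  by_contra hcon
  rw [Set.not_subset] at hcon
  obtain ⟨x, hxS, hx⟩ := hcon
  obtain ⟨z, hzS, hz⟩ := hm
  let V : Set ℂ := {x | ∀ᶠ y in 𝓝 x, (∀ i, i ∉ T B.w → i ∈ T y) → y ∈ B.oo T}
  have hV : IsOpen V := isOpen_setOfPred_eventually_nhds
  have hF : IsOpen (B.oo T)ᶜ := (hB.isClosed_oo h).isOpen_compl
  have hsub : S ⊆ V ∪ (B.oo T)ᶜ := by
    intro y hy
    by_cases hyF : y ∈ B.oo T
    · exact Or.inl (hB.near h hmin hyF)
    · exact Or.inr hyF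
  obtain ⟨y, hyS, hyV, hyF⟩ := hS V _ hV hF hsub ⟨z, hzS, hB.near h hmin hz⟩ ⟨x, hxS, hx⟩
  have hyV' : ∀ᶠ y' in 𝓝 y, (∀ i, i ∉ T B.w → i ∈ T y') → y' ∈ B.oo T := hyV
  exact hyF (hyV'.self_of_nhds (hc y hyS))

/-- a point of the border in a box has only the two free colours, or it is a complementary
corner -/
theorem Ok.corner815 (hB : B.Ok T) (h : Irr U T) (hmin : Mn U T) {u : ℂ} (hu : u ∈ B.oo T) :
    (∀ m ∈ T u, m ∉ T B.w) ∨
      ∃ p ∈ B.K, ∃ q ∈ B.L, u = p + q - B.w ∧ T p ∪ T q = univ ∧ p + q ≠ 2 * B.w := by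
  obtain ⟨p, hp, q, hq, C, C'⟩ := hB.data h hmin hu
  rcases C.dich C' with h1 | h1
  · exact Or.inl h1
  · exact Or.inr ⟨p, hp, q, hq, C.hu, h1, C.ne2⟩

/-- **an exact arc with the two free colours, about any centre `y`**: if one closure point is in
the box, all are -/
theorem Ok.arc815 (hB : B.Ok T) (h : Irr U T) (hmin : Mn U T) {y : ℂ} {S : Set ℂ}
    (hS : IsPreconnected S) (hSy : S ⊆ closure (Ex T y (T B.w)ᶜ)) {z r : ℂ} (hz : z ∈ S)
    (hzB : z ∈ B.cell) (hr : r ∈ S) :
    r ∈ B.oo T ∧ ((∃ m ∈ T r, m ∈ T B.w) → ∃ p ∈ B.K, ∃ q ∈ B.L, r = p + q - B.w ∧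
      T p ∪ T q = univ ∧ p + q ≠ 2 * B.w) := by
  have hc : ∀ x ∈ S, ∀ i, i ∉ T B.w → i ∈ T x := fun x hx i hi =>
    sub_of_closure h (hSy hx) hi
  have h1 := hB.prop815 h hmin hS hc ⟨z, hz, hc z hz, hzB⟩
  refine ⟨h1 hr, fun ⟨m, hm, hmw⟩ => ?_⟩
  rcases hB.corner815 h hmin (h1 hr) with h2 | h2
  · exact absurd hmw (h2 m hm)
  · exact h2

end Box

end Vale.Agent.P032.H926
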