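import Mathlib

/-!
# P032: the sign function of a `J`-pair, abstract part (helper815)

Directions in units of 60 degrees.  `Z`, `Y` are the closed sets of the directions of the pair arcs of
the two circles, `P`, `N` the closed sets of the directions with the sign `+`, `-`.  A *flip* is a
point of `P ∩ N`.

* `SG815` : the rules S1, S2, S3;
* `eq815` : an arc `[b, b']` of `Z` with the same sign before and after it, and without other points of
  `Z` near it, has length one, and both ends are in `Y`;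
* `flip_between815`, `const815` : signs are constant on flip-free intervals.
-/

open Set Filter Topology

namespace Vale.Agent.P032.H815

/-- the sign rules of two `J`-partners -/
structure SG815 (P N Z Y : Set ℝ) : Prop where
  cP : IsClosed P
  cN : IsClosed N
  cZ : IsClosed Z
  cY : IsClosed Y
  cov : ∀ t, t ∈ P ∨ t ∈ N
  s1 : ∀ t, t ∈ Y → t ∉ interior Z
  s1' : ∀ t, t ∈ Z → t ∉ interior Y
  s2 : ∀ t, (t ∉ Z ∨ t + 1 ∉ Y) → (t ∉ Y ∨ t + 1 ∉ Z) →
    (t ∈ P ↔ t + 1 ∈ N) ∧ (t ∈ N ↔ t + 1 ∈ P)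
  s3 : ∀ t, t ∈ P → t ∈ N → (t ∈ Z ∧ t ∉ Y ∧ t - 1 ∈ Y ∧ t + 1 ∈ Y) ∨
    (t ∈ Y ∧ t ∉ Z ∧ t - 1 ∈ Z ∧ t + 1 ∈ Z)
  pP : ∀ t, t + 6 ∈ P ↔ t ∈ P
  pN : ∀ t, t + 6 ∈ N ↔ t ∈ N
  pZ : ∀ t, t + 6 ∈ Z ↔ t ∈ Z
  pY : ∀ t, t + 6 ∈ Y ↔ t ∈ Y

variable {P N Z Y : Set ℝ}

namespace SG815

/-- the signs exchanged -/
theorem neg (S : SG815 P N Z Y) : SG815 N P Z Y where
  cP := S.cN
  cN := S.cP
  cZ := S.cZ
  cY := S.cY
  cov := fun t => (S.cov t).symm
  s1 := S.s1
  s1' := S.s1'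
  s2 := fun t h h' => (S.s2 t h h').symm
  s3 := fun t h h' => S.s3 t h' h
  pP := S.pN
  pN := S.pP
  pZ := S.pZ
  pY := S.pY

/-- the circles exchanged -/
theorem swap (S : SG815 P N Z Y) : SG815 P N Y Z where
  cP := S.cP
  cN := S.cN
  cZ := S.cY
  cY := S.cZ
  cov := S.cov
  s1 := S.s1'
  s1' := S.s1
  s2 := fun t h h' => S.s2 t h' h
  s3 := fun t h h' => (S.s3 t h h').symm
  pP := S.pP
  pN := S.pN
  pZ := S.pY
  pY := S.pZ

/-- the circles reflected -/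
theorem refl (S : SG815 P N Z Y) :
    SG815 {t | -t ∈ P} {t | -t ∈ N} {t | -t ∈ Z} {t | -t ∈ Y} where
  cP := S.cP.preimage continuous_neg
  cN := S.cN.preimage continuous_neg
  cZ := S.cZ.preimage continuous_neg
  cY := S.cY.preimage continuous_neg
  cov := fun t => S.cov (-t)
  s1 := by
    intro t ht hi
    have h1 : (fun x : ℝ => -x) ⁻¹' interior Z = interior ((fun x : ℝ => -x) ⁻¹' Z) :=
      (Homeomorph.neg ℝ).preimage_interior Z
    have h2 : t ∈ interior ((fun x : ℝ => -x) ⁻¹' Z) := hi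
    rw [← h1] at h2
    exact S.s1 (-t) ht h2
  s1' := by
    intro t ht hi
    have h1 : (fun x : ℝ => -x) ⁻¹' interior Y = interior ((fun x : ℝ => -x) ⁻¹' Y) :=
      (Homeomorph.neg ℝ).preimage_interior Y
    have h2 : t ∈ interior ((fun x : ℝ => -x) ⁻¹' Y) := hi
    rw [← h1] at h2
    exact S.s1' (-t) ht h2
  s2 := by
    intro t h h'
    have e1 : -(t + 1) + 1 = -t := by ring
    have h1 := S.s2 (-(t + 1)) (by rw [e1]; exact h'.symm) (by rw [e1]; exact h.symm)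
    rw [e1] at h1
    exact ⟨h1.2.symm, h1.1.symm⟩
  s3 := by
    intro t h h'
    have e1 : -t - 1 = -(t + 1) := by ring
    have e2 : -t + 1 = -(t - 1) := by ring
    rcases S.s3 (-t) h h' with ⟨h1, h2, h3, h4⟩ | ⟨h1, h2, h3, h4⟩
    · rw [e1] at h3; rw [e2] at h4
      exact Or.inl ⟨h1, h2, h4, h3⟩
    · rw [e1] at h3; rw [e2] at h4
      exact Or.inr ⟨h1, h2, h4, h3⟩
  pP := by
    intro t
    have h1 := S.pP (-(t + 6))
    rw [show -(t + 6) + 6 = -t by ring] at h1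
    exact h1.symm
  pN := by
    intro t
    have h1 := S.pN (-(t + 6))
    rw [show -(t + 6) + 6 = -t by ring] at h1
    exact h1.symm
  pZ := by
    intro t
    have h1 := S.pZ (-(t + 6))
    rw [show -(t + 6) + 6 = -t by ring] at h1
    exact h1.symm
  pY := by
    intro t
    have h1 := S.pY (-(t + 6))
    rw [show -(t + 6) + 6 = -t by ring] at h1
    exact h1.symm

/-- the directions shifted -/
theorem shift (S : SG815 P N Z Y) (s : ℝ) :
    SG815 {t | t + s ∈ P} {t | t + s ∈ N} {t | t + s ∈ Z} {t | t + s ∈ Y} where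
  cP := S.cP.preimage (by fun_prop)
  cN := S.cN.preimage (by fun_prop)
  cZ := S.cZ.preimage (by fun_prop)
  cY := S.cY.preimage (by fun_prop)
  cov := fun t => S.cov (t + s)
  s1 := by
    intro t ht hi
    have h1 : (fun x : ℝ => x + s) ⁻¹' interior Z = interior ((fun x : ℝ => x + s) ⁻¹' Z) :=
      (Homeomorph.addRight s).preimage_interior Z
    have h2 : t ∈ interior ((fun x : ℝ => x + s) ⁻¹' Z) := hi
    rw [← h1] at h2
    exact S.s1 (t + s) ht h2
  s1' := by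
    intro t ht hi
    have h1 : (fun x : ℝ => x + s) ⁻¹' interior Y = interior ((fun x : ℝ => x + s) ⁻¹' Y) :=
      (Homeomorph.addRight s).preimage_interior Y
    have h2 : t ∈ interior ((fun x : ℝ => x + s) ⁻¹' Y) := hi
    rw [← h1] at h2
    exact S.s1' (t + s) ht h2
  s2 := by
    intro t h h'
    have e1 : t + 1 + s = t + s + 1 := by ring
    have h1 := S.s2 (t + s) (by rw [← e1]; exact h) (by rw [← e1]; exact h')
    rw [← e1] at h1
    exact h1
  s3 := by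
    intro t h h'
    have e1 : t + 1 + s = t + s + 1 := by ring
    have e2 : t - 1 + s = t + s - 1 := by ring
    have h1 := S.s3 (t + s) h h'
    rw [← e1, ← e2] at h1
    exact h1
  pP := fun t => by
    have h1 := S.pP (t + s)
    rw [show t + s + 6 = t + 6 + s by ring] at h1
    exact h1
  pN := fun t => by
    have h1 := S.pN (t + s)
    rw [show t + s + 6 = t + 6 + s by ring] at h1
    exact h1
  pZ := fun t => by
    have h1 := S.pZ (t + s)
    rw [show t + s + 6 = t + 6 + s by ring] at h1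
    exact h1
  pY := fun t => by
    have h1 := S.pY (t + s)
    rw [show t + s + 6 = t + 6 + s by ring] at h1
    exact h1

theorem memP (S : SG815 P N Z Y) {t : ℝ} (h : t ∉ N) : t ∈ P := (S.cov t).resolve_right h

theorem memN (S : SG815 P N Z Y) {t : ℝ} (h : t ∉ P) : t ∈ N := (S.cov t).resolve_left h

/-- **a flip between different signs** -/
theorem flip_between815 (S : SG815 P N Z Y) {x x' : ℝ} (hx : x ≤ x')
    (h : (x ∈ P ∧ x' ∈ N) ∨ (x ∈ N ∧ x' ∈ P)) : ∃ t ∈ Icc x x', t ∈ P ∧ t ∈ N := by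
  have hpre := (isPreconnected_Icc (a := x) (b := x'))
  rw [isPreconnected_closed_iff] at hpre
  have hP : (Icc x x' ∩ P).Nonempty := by
    rcases h with h | h
    · exact ⟨x, left_mem_Icc.2 hx, h.1⟩
    · exact ⟨x', right_mem_Icc.2 hx, h.2⟩
  have hN : (Icc x x' ∩ N).Nonempty := by
    rcases h with h | h
    · exact ⟨x', right_mem_Icc.2 hx, h.2⟩
    · exact ⟨x, left_mem_Icc.2 hx, h.1⟩
  obtain ⟨w, hw1, hw2⟩ := hpre _ _ S.cP S.cN (fun x _ => S.cov x) hP hN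
  exact ⟨w, hw1, hw2⟩

/-- **no flips, one sign** -/
theorem const815 (S : SG815 P N Z Y) {x x' : ℝ} (h : ∀ t ∈ Icc x x', ¬ (t ∈ P ∧ t ∈ N)) :
    (∀ t ∈ Icc x x', t ∉ N) ∨ (∀ t ∈ Icc x x', t ∉ P) := by
  by_contra hcon
  push Not at hcon
  obtain ⟨⟨u, hu, hu'⟩, v, hv, hv'⟩ := hcon
  have hpre := (isPreconnected_Icc (a := x) (b := x'))
  rw [isPreconnected_closed_iff] at hpre
  obtain ⟨w, hw1, hw2⟩ := hpre _ _ S.cP S.cN (fun x _ => S.cov x) ⟨v, hv, hv'⟩ ⟨u, hu, hu'⟩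
  exact h w hw1 hw2

theorem notY_of_Ioo (S : SG815 P N Z Y) {b b' t : ℝ} (hZ : Icc b b' ⊆ Z) (ht : t ∈ Ioo b b') :
    t ∉ Y := fun h => S.s1 t h
      (interior_mono hZ (by rw [interior_Icc]; exact ht))

/-- a limit of points which are not in `N` is in `P` (left) -/
theorem P_of_left (S : SG815 P N Z Y) {b : ℝ} (h : ∀ᶠ u in 𝓝[<] b, u ∉ N) : b ∈ P := by
  have h1 : ∀ᶠ u in 𝓝[<] b, u ∈ P := h.mono fun u hu => S.memP hu
  exact S.cP.mem_of_frequently_of_tendsto h1.frequently (tendsto_id.mono_left nhdsWithin_le_nhds)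

theorem P_of_right (S : SG815 P N Z Y) {b : ℝ} (h : ∀ᶠ u in 𝓝[>] b, u ∉ N) : b ∈ P := by
  have h1 : ∀ᶠ u in 𝓝[>] b, u ∈ P := h.mono fun u hu => S.memP hu
  exact S.cP.mem_of_frequently_of_tendsto h1.frequently (tendsto_id.mono_left nhdsWithin_le_nhds)

/-- **(EQ).**  An arc `[b, b']` of `Z` with the sign `+` before and after it, without other points of
`Z` at distance less than one (only needed if it is short): it has length one and its ends are in
`Y`. -/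
theorem eq815 (S : SG815 P N Z Y) {b b' : ℝ} (hbb : b ≤ b') (hZ : Icc b b' ⊆ Z)
    (g1 : ∀ u ∈ Ioo (b' - 1) b, u ∉ Z) (g2 : ∀ u ∈ Ioo b' (b + 1), u ∉ Z)
    (k1 : ∀ᶠ u in 𝓝[<] b, u ∉ Z) (k2 : ∀ᶠ u in 𝓝[>] b', u ∉ Z)
    (h1 : ∀ᶠ u in 𝓝[<] b, u ∉ N) (h2 : ∀ᶠ u in 𝓝[>] b', u ∉ N) :
    b' = b + 1 ∧ b ∈ Y ∧ b' ∈ Y := by
  have hbZ : b ∈ Z := hZ ⟨le_rfl, hbb⟩
  have hbZ' : b' ∈ Z := hZ ⟨hbb, le_rfl⟩
  have hbP : b ∈ P := S.P_of_left h1
  have hbP' : b' ∈ P := S.P_of_right h2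
  have hlen : b' = b + 1 := by
    rcases lt_trichotomy b' (b + 1) with hlt | heq | hgt
    · -- too short
      exfalso
      have e1 : ∀ᶠ u in 𝓝[<] b, u ∈ Ioo (b' - 1) b := Ioo_mem_nhdsLT (by linarith)
      obtain ⟨u, hu, huN⟩ := (e1.and h1).exists
      have huZ : u ∉ Z := g1 u hu
      have huZ' : u + 1 ∉ Z := g2 (u + 1) ⟨by linarith [hu.1], by linarith [hu.2]⟩
      have huP : u + 1 ∈ N := ((S.s2 u (Or.inl huZ) (Or.inr huZ')).1).1 (S.memP huN)
      have e2 : ∀ᶠ v in 𝓝[>] b', v ∈ Ioo b' (u + 1) := Ioo_mem_nhdsGT (by linarith [hu.1])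
      obtain ⟨v, hv, hvN⟩ := (e2.and h2).exists
      obtain ⟨t, ht, htP, htN⟩ := S.flip_between815 hv.2.le (Or.inl ⟨S.memP hvN, huP⟩)
      have ht1 : t ∈ Ioo b' (b + 1) := ⟨by linarith [ht.1, hv.1], by linarith [ht.2, hu.2]⟩
      rcases S.s3 t htP htN with ⟨k, -⟩ | ⟨-, -, k, -⟩
      · exact g2 t ht1 k
      · exact g1 (t - 1) ⟨by linarith [ht1.1], by linarith [ht1.2]⟩ k
    · exact heq
    · -- too long
      exfalso
      -- no flip at `b'`
      have hb'N : b' ∉ N := by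
        intro hN
        rcases S.s3 b' hbP' hN with ⟨-, -, k, -⟩ | ⟨-, k, -⟩
        · exact S.notY_of_Ioo hZ ⟨by linarith, by linarith⟩ k
        · exact k hbZ'
      have e1 : ∀ᶠ u in 𝓝[<] b', u ∉ N :=
        mem_nhdsWithin_of_mem_nhds (S.cN.isOpen_compl.mem_nhds hb'N)
      have e2 : ∀ᶠ u in 𝓝[<] b', u ∈ Ioo (b + 1) b' := Ioo_mem_nhdsLT hgt
      obtain ⟨u, huN, hu⟩ := (e1.and e2).exists
      have m1 : u ∉ Y := S.notY_of_Ioo hZ ⟨by linarith [hu.1], hu.2⟩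
      have m2 : u - 1 ∉ Y := S.notY_of_Ioo hZ ⟨by linarith [hu.1], by linarith [hu.2]⟩
      have e3 : u - 1 + 1 = u := by ring
      have h3 := S.s2 (u - 1) (Or.inr (by rw [e3]; exact m1)) (Or.inl m2)
      rw [e3] at h3
      have h4 : u - 1 ∈ N := h3.2.2 (S.memP huN)
      obtain ⟨t, ht, htP, htN⟩ := S.flip_between815 (show b ≤ u - 1 by linarith [hu.1])
        (Or.inl ⟨hbP, h4⟩)
      have htZ : t ∈ Z := hZ ⟨ht.1, by linarith [ht.2, hu.2]⟩
      rcases S.s3 t htP htN with ⟨-, -, -, k⟩ | ⟨-, k, -⟩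
      · exact S.notY_of_Ioo hZ ⟨by linarith [ht.1], by linarith [ht.2, hu.2]⟩ k
      · exact k htZ
  subst hlen
  refine ⟨rfl, ?_, ?_⟩
  · by_contra hY
    have e1 : ∀ᶠ u in 𝓝[<] b, u ∉ Y :=
      mem_nhdsWithin_of_mem_nhds (S.cY.isOpen_compl.mem_nhds hY)
    have e2 : ∀ᶠ u in 𝓝[<] b, u + 1 ∈ N := by
      filter_upwards [e1, k1, h1] with u u1 u2 u3
      exact ((S.s2 u (Or.inl u2) (Or.inl u1)).1).1 (S.memP u3)
    have e3 : b + 1 ∈ N := by
      refine S.cN.mem_of_frequently_of_tendsto e2.frequently ?_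
      have : Continuous fun u : ℝ => u + 1 := by fun_prop
      exact (this.tendsto b).mono_left nhdsWithin_le_nhds
    rcases S.s3 (b + 1) hbP' e3 with ⟨-, -, k, -⟩ | ⟨-, k, -⟩
    · rw [add_sub_cancel_right] at k; exact hY k
    · exact k hbZ'
  · by_contra hY
    have e1 : ∀ᶠ u in 𝓝[>] (b + 1), u ∉ Y :=
      mem_nhdsWithin_of_mem_nhds (S.cY.isOpen_compl.mem_nhds hY)
    have e2 : ∀ᶠ u in 𝓝[>] (b + 1), u - 1 ∈ N := by
      filter_upwards [e1, k2, h2] with u u1 u2 u3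
      have e3 : u - 1 + 1 = u := by ring
      have h3 := S.s2 (u - 1) (Or.inr (by rw [e3]; exact u1)) (Or.inr (by rw [e3]; exact u2))
      rw [e3] at h3
      exact h3.2.2 (S.memP u3)
    have e3 : b ∈ N := by
      have h4 : b + 1 - 1 ∈ N := by
        refine S.cN.mem_of_frequently_of_tendsto (f := fun u : ℝ => u - 1) e2.frequently ?_
        have : Continuous fun u : ℝ => u - 1 := by fun_prop
        exact (this.tendsto (b + 1)).mono_left nhdsWithin_le_nhds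
      rwa [add_sub_cancel_right] at h4
    rcases S.s3 b hbP e3 with ⟨-, -, -, k⟩ | ⟨-, k, -⟩
    · exact hY k
    · exact k hbZ

/-- a point which is in `P` and `N` is not in both `Z` and `Y` -/
theorem no_flip_ZY (S : SG815 P N Z Y) {t : ℝ} (hZ : t ∈ Z) (hY : t ∈ Y) : ¬ (t ∈ P ∧ t ∈ N) := by
  rintro ⟨h1, h2⟩
  rcases S.s3 t h1 h2 with ⟨-, k, -⟩ | ⟨-, k, -⟩
  · exact k hY
  · exact k hZ

/-- outside of `Z` and `Y` there is exactly one sign -/
theorem no_flip_gap (S : SG815 P N Z Y) {t : ℝ} (hZ : t ∉ Z) (hY : t ∉ Y) :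
    ¬ (t ∈ P ∧ t ∈ N) := by
  rintro ⟨h1, h2⟩
  rcases S.s3 t h1 h2 with ⟨k, -⟩ | ⟨k, -⟩
  · exact hZ k
  · exact hY k

end SG815

end Vale.Agent.P032.H815
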